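import Vale.Agent.P100.Side

/-! The core nonexistence theorem on the cylinder. -/

open MeasureTheory Set Real Filter Topology
open scoped ENNReal

namespace Vale.Agent.P100

lemma resample_int {X Y : Type} [MeasurableSpace X] [MeasurableSpace Y] {μ : Measure X}
    {μ' : Measure Y} {l : Measure ℝ} [SFinite μ] [SFinite μ'] [SFinite l] {R : Y × ℝ → Y}
    (hR : MeasurePreserving R (μ'.prod l) μ') {F : X × Y → ℝ} (hF : Integrable F (μ.prod μ')) :
    Integrable (fun p : X × Y => ∫ s, F (p.1, R (p.2, s)) ∂l) (μ.prod μ') ∧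
      ∫ p, ∫ s, F (p.1, R (p.2, s)) ∂l ∂(μ.prod μ') = ∫ p, F p ∂(μ.prod μ') := by
  have h := ((MeasurePreserving.id μ).prod hR).comp (measurePreserving_prodAssoc μ μ' l)
  have hi := h.integrable_comp_of_integrable hF
  refine ⟨hi.integral_prod_left, (integral_prod _ hi).symm.trans ?_⟩
  have := integral_map h.measurable.aemeasurable (f := F) (h.map_eq.symm ▸ hF.aestronglyMeasurable)
  rw [h.map_eq] at this
  exact this.symm

variable {Θ : Type} [TopologicalSpace Θ] [MeasurableSpace Θ] [BorelSpace Θ]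
  [SecondCountableTopology Θ] {ν : Measure Θ} [SFinite ν] {c : Θ → Θ → ℝ} {m κ σ σ' : ℝ}
  {φ ψ U V : ℝ → Θ → ℝ}

lemma force_nonneg (hc : Sect ν c m) (hσ : 0 ≤ σ) (hφ : Dens ν φ) (hψ : Dens ν ψ)
    (h : Pot ν c m κ σ φ ψ V) (N : ℕ) (T : ℝ) :
    0 ≤ᵐ[mu ν φ] fun ω => ∫ ω', frc c m κ σ N T φ (ω, ω') ∂(mu ν ψ) := by
  filter_upwards [ae_restrict_mem (intSys hφ.cont).mO] with ω hω
  obtain ⟨l1, l2⟩ := (Om_spec hφ.cont hω).1
  have hL := sub_pos.2 (l1.trans l2)
  have := eta_nonneg hσ hL.le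
  have := h.pos (lf φ ω) ω.2.1
  have := beta_nonneg N T ((lf φ ω + rt φ ω) / 2)
  exact le_trans (by positivity) (integral_frc hc hσ hφ hψ h N T hω)

theorem core (hc : Sect ν c m) (hm : 0 < m) (hκ : 0 ≤ κ) (hκm : κ ≤ m) (hσ : 0 < σ)
    (hσ' : 0 < σ') (hφ : Dens ν φ) (hψ : Dens ν ψ) (hV : Pot ν c m κ σ φ ψ V)
    (hU : Pot ν c m (-κ) σ' ψ φ U) (θ : Θ) : False := by
  have := hφ.finite
  have := hψ.finite
  set N := ⌈m⌉₊ with hN
  have N0 : N ≠ 0 := (Nat.ceil_pos.2 hm).ne'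
  obtain ⟨C, C0, hC⟩ := pair_ineq hm hκ hκm hσ hσ' (Nat.le_ceil m)
  set ctr : ℝ × Θ × ℝ → ℝ := fun ω => (lf φ ω + rt φ ω) / 2 with hctr
  have mctr : Measurable ctr := by
    have := (intSys hφ.cont).ma
    have := (intSys hφ.cont).mb
    fun_prop
  have iF := fun T => integrable_frc hc hm.le hσ.le hφ hψ hV N0 T
  have iG := fun T => integrable_frc hc hm.le hσ'.le hψ hφ hU N0 T
  have upper : ∀ T, ∫ p, frc c m κ σ N T φ p ∂((mu ν φ).prod (mu ν ψ)) ≤
      C * (mu ν φ).real (ctr ⁻¹' Ioi T) * (mu ν ψ).real univ := by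
    intro T
    obtain ⟨i1, e1⟩ := resample_int (μ' := mu ν ψ) ((intSys hψ.cont).mp (ν.prod volume)) (iF T)
    obtain ⟨i2, e2⟩ := resample_int (μ' := mu ν φ) ((intSys hφ.cont).mp (ν.prod volume)) (iG T)
    have g0 : 0 ≤ ∫ p, frc c m (-κ) σ' N T ψ p ∂((mu ν ψ).prod (mu ν φ)) := by
      rw [integral_prod _ (iG T)]
      exact integral_nonneg_of_ae (force_nonneg hc hσ'.le hψ hφ hU N T)
    have mS : MeasurableSet (ctr ⁻¹' Ioi T) := measurableSet_Ioi.preimage mctr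
    have e3 : C * (mu ν φ).real (ctr ⁻¹' Ioi T) * (mu ν ψ).real univ =
        ∫ p, ((ctr ⁻¹' Ioi T) ×ˢ univ).indicator (fun _ => C) p ∂((mu ν φ).prod (mu ν ψ)) := by
      rw [integral_indicator_const _ (mS.prod MeasurableSet.univ), measureReal_prod_prod,
        smul_eq_mul]
      ring
    refine (le_add_of_nonneg_right g0).trans ?_
    rw [e3]
    refine (congrArg₂ (· + ·) e1 ((integral_prod_swap _).trans e2)).ge.trans ?_
    refine (integral_add i1 i2.swap).ge.trans (integral_mono_ae (i1.add i2.swap)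
      ((integrable_const C).indicator (mS.prod MeasurableSet.univ)) ?_)
    have a3 : ∀ᵐ p ∂((mu ν φ).prod (mu ν ψ)), c p.1.2.1 p.2.2.1 < 1 :=
      (Measure.ae_prod_iff_ae_ae (measurableSet_lt (hc.meas (by fun_prop) (by fun_prop))
        measurable_const)).2 (Eventually.of_forall fun ω => hc.ae_lt ψ ω.2.1)
    filter_upwards [a3, (Measure.quasiMeasurePreserving_fst (μ := mu ν φ) (ν := mu ν ψ)).ae
      (ae_restrict_mem (intSys hφ.cont).mO),
      (Measure.quasiMeasurePreserving_snd (μ := mu ν φ) (ν := mu ν ψ)).ae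
      (ae_restrict_mem (intSys hψ.cont).mO)] with p h1 h2 h3
    obtain ⟨l1, l2⟩ := (Om_spec hφ.cont h2).1
    obtain ⟨l3, l4⟩ := (Om_spec hψ.cont h3).1
    have := hC T _ _ _ _ _ h1 (l1.trans l2) (l3.trans l4)
    simp only [frc, resample, Function.comp, Prod.fst_swap, Prod.snd_swap, hc.symm p.2.2.1]
    refine this.trans (le_of_eq ?_)
    by_cases h4 : p.1 ∈ ctr ⁻¹' Ioi T
    · rw [indicator_of_mem (show p ∈ _ ×ˢ univ from ⟨h4, trivial⟩),
        indicator_of_mem (show _ ∈ Ioi T from h4)]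
      simp
    · rw [indicator_of_notMem (show p ∉ _ ×ˢ univ from fun h => h4 h.1),
        indicator_of_notMem (show _ ∉ Ioi T from h4)]
      simp
  have lim : Tendsto (fun T : ℕ => C * (mu ν φ).real (ctr ⁻¹' Ioi (T : ℝ)) * (mu ν ψ).real univ)
      atTop (𝓝 (C * 0 * (mu ν ψ).real univ)) := by
    refine (Tendsto.const_mul _ ?_).mul_const _
    have := tendsto_measure_iInter_atTop (μ := mu ν φ) (s := fun T : ℕ => ctr ⁻¹' Ioi (T : ℝ))
      (fun T => (measurableSet_Ioi.preimage mctr).nullMeasurableSet)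
      (fun a b h => preimage_mono (Ioi_subset_Ioi (Nat.cast_le.2 h))) ⟨0, measure_ne_top _ _⟩
    rw [show ⋂ T : ℕ, ctr ⁻¹' Ioi (T : ℝ) = ∅ from eq_empty_of_forall_notMem fun ω h =>
      (Nat.le_ceil (ctr ω)).not_gt (mem_iInter.1 h ⌈ctr ω⌉₊), measure_empty] at this
    exact (ENNReal.tendsto_toReal ENNReal.zero_ne_top).comp this
  have null : ∀ T₀ : ℕ, mu ν φ (ctr ⁻¹' Iic (T₀ : ℝ)) = 0 := by
    intro T₀
    have mS : MeasurableSet (ctr ⁻¹' Iic (T₀ : ℝ)) := measurableSet_Iic.preimage mctr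
    have h1 : ∫ ω in ctr ⁻¹' Iic (T₀ : ℝ), ∫ ω', frc c m κ σ N T₀ φ (ω, ω') ∂(mu ν ψ) ∂(mu ν φ)
        ≤ 0 := by
      refine (ge_of_tendsto lim ?_).trans (by simp)
      filter_upwards [eventually_ge_atTop T₀] with T hT
      refine le_trans ?_ (upper T)
      rw [integral_prod _ (iF T)]
      refine le_trans (le_of_eq (setIntegral_congr_fun mS fun ω hω => ?_))
        (setIntegral_le_integral (iF T).integral_prod_left (force_nonneg hc hσ.le hφ hψ hV N T))
      simp only [frc, force]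
      rw [beta_one N (show _ ≤ (T₀ : ℝ) from hω),
        beta_one N (le_trans (show _ ≤ (T₀ : ℝ) from hω) (Nat.cast_le.2 hT))]
    have h2 := (setIntegral_eq_zero_iff_of_nonneg_ae (ae_restrict_of_ae
      (force_nonneg hc hσ.le hφ hψ hV N T₀)) (iF T₀).integral_prod_left.integrableOn).1
      (le_antisymm h1 (integral_nonneg_of_ae (ae_restrict_of_ae
        (force_nonneg hc hσ.le hφ hψ hV N T₀))))
    rw [← Measure.restrict_eq_zero, ← ae_eq_bot, ← eventually_false_iff_eq_bot]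
    filter_upwards [h2, ae_restrict_mem mS, ae_restrict_of_ae (μ := mu ν φ)
      (ae_restrict_mem (intSys hφ.cont).mO)] with ω h3 h4 hω
    obtain ⟨l1, l2⟩ := (Om_spec hφ.cont hω).1
    have hL := sub_pos.2 (l1.trans l2)
    have h5 := integral_frc hc hσ.le hφ hψ hV N T₀ hω
    rw [beta_one N (show _ ≤ (T₀ : ℝ) from h4), h3] at h5
    have : 0 < eta σ (rt φ ω - lf φ ω) := by
      have : exp (-(σ * (rt φ ω - lf φ ω))) < 1 := exp_lt_one_iff.2 (by nlinarith)
      unfold eta; linarith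
    have := hV.pos (lf φ ω) ω.2.1
    exact h5.not_gt (by simp only [Pi.zero_apply]; positivity)
  have h0 : mu ν φ = 0 := by
    rw [← Measure.measure_univ_eq_zero, show (univ : Set (ℝ × Θ × ℝ)) =
      ⋃ T : ℕ, ctr ⁻¹' Iic (T : ℝ) from (eq_univ_of_forall fun ω =>
        mem_iUnion.2 ⟨⌈ctr ω⌉₊, Nat.le_ceil (ctr ω)⟩).symm]
    exact measure_iUnion_null null
  have := hU.rep' hc hφ 0 θ
  rw [h0, lintegral_zero_measure] at this
  exact (ENNReal.ofReal_pos.2 (hU.pos 0 θ)).ne this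

theorem core' (hc : Sect ν c m) (hm : 0 < m) (hκ : |κ| ≤ m) (hσ : 0 < σ)
    (hσ' : 0 < σ') (hφ : Dens ν φ) (hψ : Dens ν ψ) (hV : Pot ν c m κ σ φ ψ V)
    (hU : Pot ν c m (-κ) σ' ψ φ U) (θ : Θ) : False := by
  rcases le_total 0 κ with h | h
  · exact core hc hm h (le_of_abs_le hκ) hσ hσ' hφ hψ hV hU θ
  · exact core hc hm (neg_nonneg.2 h) (neg_le_of_abs_le hκ |> neg_le.1) hσ' hσ hψ hφ hU
      (by rwa [neg_neg]) θ

end Vale.Agent.P100
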