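import Mathlib.Analysis.InnerProductSpace.Laplacian
import Mathlib.Analysis.InnerProductSpace.Calculus
import Mathlib.Analysis.Calculus.LineDeriv.IntegrationByParts
import Mathlib.Analysis.SpecialFunctions.SmoothTransition
import Mathlib.Analysis.SpecialFunctions.Pow.Integral
import Mathlib.MeasureTheory.Measure.Haar.InnerProductSpace

/-! The Green identity for radial test functions, with a removable origin. -/

open MeasureTheory Set Real Filter Topology Metric Module Laplacian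
open scoped ENNReal InnerProductSpace

namespace Vale.Agent.P100

/-- a twice continuously differentiable profile -/
structure C2 (h h₁ h₂ : ℝ → ℝ) : Prop where
  d1 : ∀ w, 0 ≤ w → HasDerivAt h (h₁ w) w
  d2 : ∀ w, 0 ≤ w → HasDerivAt h₁ (h₂ w) w
  c2 : ContinuousOn h₂ (Ici 0)

variable {h h₁ h₂ k k₁ k₂ : ℝ → ℝ}

lemma C2.c0 (H : C2 h h₁ h₂) : ContinuousOn h (Ici 0) :=
  fun w hw => (H.d1 w hw).continuousAt.continuousWithinAt

lemma C2.c1 (H : C2 h h₁ h₂) : ContinuousOn h₁ (Ici 0) :=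
  fun w hw => (H.d2 w hw).continuousAt.continuousWithinAt

lemma C2.mul (H : C2 h h₁ h₂) (K : C2 k k₁ k₂) : C2 (fun w => h w * k w)
    (fun w => h₁ w * k w + h w * k₁ w) (fun w => h₂ w * k w + 2 * (h₁ w * k₁ w) + h w * k₂ w) :=
  ⟨fun w hw => (H.d1 w hw).mul (K.d1 w hw), fun w hw => (((H.d2 w hw).mul (K.d1 w hw)).add
    ((H.d1 w hw).mul (K.d2 w hw))).congr_deriv (by ring),
    ((H.c2.mul K.c0).add (continuousOn_const.mul (H.c1.mul K.c1))).add (H.c0.mul K.c2)⟩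

lemma C2.sub (H : C2 h h₁ h₂) (K : C2 k k₁ k₂) :
    C2 (fun w => h w - k w) (fun w => h₁ w - k₁ w) (fun w => h₂ w - k₂ w) :=
  ⟨fun w hw => (H.d1 w hw).sub (K.d1 w hw), fun w hw => (H.d2 w hw).sub (K.d2 w hw), H.c2.sub K.c2⟩

lemma C2.scale (H : C2 h h₁ h₂) {c : ℝ} (hc : 0 ≤ c) :
    C2 (fun w => h (c * w)) (fun w => c * h₁ (c * w)) (fun w => c ^ 2 * h₂ (c * w)) :=
  ⟨fun w hw => ((H.d1 _ (mul_nonneg hc hw)).comp w ((hasDerivAt_id w).const_mul c)).congr_deriv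
    (by simp [mul_comm]), fun w hw => (((H.d2 _ (mul_nonneg hc hw)).comp w
    ((hasDerivAt_id w).const_mul c)).const_mul c).congr_deriv (by simp; ring),
    continuousOn_const.mul (H.c2.comp (by fun_prop) fun w hw => mul_nonneg hc hw)⟩

lemma C2.van (H : C2 h h₁ h₂) {S c : ℝ} (hS : 0 ≤ S) (h0 : ∀ w, S < w → h w = c) :
    (∀ w, S < w → h₁ w = 0) ∧ ∀ w, S < w → h₂ w = 0 := by
  have e1 : ∀ w, S < w → h₁ w = 0 := fun w hw => (H.d1 w (hS.trans hw.le)).unique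
    ((hasDerivAt_const w c).congr_of_eventuallyEq ((eventually_gt_nhds hw).mono h0))
  exact ⟨e1, fun w hw => (H.d2 w (hS.trans hw.le)).unique
    ((hasDerivAt_const w 0).congr_of_eventuallyEq ((eventually_gt_nhds hw).mono e1))⟩

lemma exists_cut : ∃ s s₁ s₂ M, C2 s s₁ s₂ ∧ (∀ w, 0 ≤ s w ∧ s w ≤ 1) ∧ (∀ w ≤ 1, s w = 0) ∧
    (∀ w, 2 < w → s w = 1 ∧ s₁ w = 0 ∧ s₂ w = 0) ∧
    ∀ w, 0 ≤ w → |w * s₁ w| ≤ M ∧ |w ^ 2 * s₂ w| ≤ M := by
  set s : ℝ → ℝ := fun w => smoothTransition (w - 1) with hs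
  have c : ContDiff ℝ 2 s := smoothTransition.contDiff.comp (by fun_prop)
  have c1 : ContDiff ℝ 1 (deriv s) := c.deriv'
  have H : C2 s (deriv s) (deriv (deriv s)) :=
    ⟨fun w _ => (c.differentiable (by norm_num) w).hasDerivAt,
      fun w _ => (c1.differentiable (by norm_num) w).hasDerivAt,
      (c1.continuous_deriv le_rfl).continuousOn⟩
  have e : ∀ w, 2 < w → s w = 1 := fun w hw => smoothTransition.one_of_one_le (by linarith)
  obtain ⟨e1, e2⟩ := H.van (by norm_num) e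
  obtain ⟨M, hM⟩ := (isCompact_Icc (a := (0 : ℝ)) (b := 2)).exists_bound_of_continuousOn
    (f := fun w => (w * deriv s w, w ^ 2 * deriv (deriv s) w))
    (by have := c1.continuous; have := c1.continuous_deriv le_rfl; fun_prop)
  refine ⟨s, _, _, M, H, fun w => ⟨smoothTransition.nonneg _, smoothTransition.le_one _⟩,
    fun w hw => smoothTransition.zero_of_nonpos (by linarith),
    fun w hw => ⟨e w hw, e1 w hw, e2 w hw⟩, fun w hw => ?_⟩
  rcases le_or_gt w 2 with h2 | h2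
  · exact norm_prod_le_iff.1 (hM w ⟨hw, h2⟩)
  · simpa [e1 w h2, e2 w h2] using (norm_nonneg _).trans (hM 0 (by simp))

lemma lim_cut {X ι : Type} [MeasurableSpace X] {μ : Measure X} {l : Filter ι} [l.NeBot]
    [l.IsCountablyGenerated] {F : ι → X → ℝ≥0∞} {G : X → ℝ≥0∞} (hF : ∀ i, Measurable (F i))
    (hle : ∀ᶠ i in l, ∀ᵐ y ∂μ, F i y ≤ G y) (hlim : ∀ᵐ y ∂μ, Tendsto (F · y) l (𝓝 (G y))) :
    Tendsto (fun i => ∫⁻ y, F i y ∂μ) l (𝓝 (∫⁻ y, G y ∂μ)) :=
  tendsto_of_le_liminf_of_limsup_le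
    ((lintegral_congr_ae (hlim.mono fun _ h => h.liminf_eq.symm)).trans_le (lintegral_liminf_le hF))
    (limsup_le_of_le (by isBoundedDefault) (hle.mono fun _ h => lintegral_mono_ae h))

variable {E : Type} [NormedAddCommGroup E] [InnerProductSpace ℝ E]

/-- first and second derivative in a direction -/
structure Jet (v : E) (g g₁ g₂ : E → ℝ) : Prop where
  d1 : ∀ y, HasLineDerivAt ℝ g (g₁ y) y v
  d2 : ∀ y, HasLineDerivAt ℝ g₁ (g₂ y) y v
  c0 : Continuous g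
  c1 : Continuous g₁
  c2 : Continuous g₂

lemma line_mul {v y : E} {f g : E → ℝ} {a b : ℝ} (hf : HasLineDerivAt ℝ f a y v)
    (hg : HasLineDerivAt ℝ g b y v) :
    HasLineDerivAt ℝ (fun y => f y * g y) (a * g y + f y * b) y v :=
  (HasDerivAt.mul hf hg).congr_deriv (by simp)

lemma Jet.mul {v : E} {f f₁ f₂ g g₁ g₂ : E → ℝ} (F : Jet v f f₁ f₂) (G : Jet v g g₁ g₂) :
    Jet v (fun y => f y * g y) (fun y => f₁ y * g y + f y * g₁ y)
      (fun y => f₂ y * g y + 2 * (f₁ y * g₁ y) + f y * g₂ y) :=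
  ⟨fun y => line_mul (F.d1 y) (G.d1 y), fun y => (HasDerivAt.add (line_mul (F.d2 y) (G.d1 y))
    (line_mul (F.d1 y) (G.d2 y))).congr_deriv (by ring), F.c0.mul G.c0,
    (F.c1.mul G.c0).add (F.c0.mul G.c1),
    ((F.c2.mul G.c0).add (continuous_const.mul (F.c1.mul G.c1))).add (F.c0.mul G.c2)⟩

lemma line_rad {x y v : E} {a : ℝ} (H : HasDerivAt h a (‖y - x‖ ^ 2)) :
    HasLineDerivAt ℝ (fun y => h (‖y - x‖ ^ 2)) (a * (2 * ⟪y - x, v⟫_ℝ)) y v := by
  have h1 : HasDerivAt (fun t : ℝ => y + t • v - x) v 0 :=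
    ((((hasDerivAt_id (0 : ℝ)).smul_const v).const_add y).sub_const x).congr_deriv (by simp)
  exact (H.comp_of_eq 0 h1.norm_sq (by simp)).congr_deriv (by simp)

lemma line_inner (x y v : E) :
    HasLineDerivAt ℝ (fun y => 2 * ⟪y - x, v⟫_ℝ) (2 * ‖v‖ ^ 2) y v := by
  have h1 : HasDerivAt (fun t : ℝ => y + t • v - x) v 0 :=
    ((((hasDerivAt_id (0 : ℝ)).smul_const v).const_add y).sub_const x).congr_deriv (by simp)
  exact ((h1.inner ℝ (hasDerivAt_const 0 v)).const_mul 2).congr_deriv (by simp)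

omit [InnerProductSpace ℝ E] in
lemma cont_rad (H : ContinuousOn h (Ici 0)) (x : E) : Continuous fun y => h (‖y - x‖ ^ 2) :=
  H.comp_continuous (by fun_prop) fun _ => mem_Ici.2 (sq_nonneg _)

lemma C2.jet (H : C2 h h₁ h₂) (x v : E) : Jet v (fun y => h (‖y - x‖ ^ 2))
    (fun y => h₁ (‖y - x‖ ^ 2) * (2 * ⟪y - x, v⟫_ℝ))
    (fun y => 4 * ⟪y - x, v⟫_ℝ ^ 2 * h₂ (‖y - x‖ ^ 2) + 2 * ‖v‖ ^ 2 * h₁ (‖y - x‖ ^ 2)) :=
  ⟨fun _ => line_rad (H.d1 _ (sq_nonneg _)), fun y => (line_mul (line_rad (H.d2 _ (sq_nonneg _)))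
    (line_inner x y v)).congr_deriv (by ring), cont_rad H.c0 x,
    (cont_rad H.c1 x).mul (by fun_prop),
    (Continuous.mul (by fun_prop) (cont_rad H.c2 x)).add (continuous_const.mul (cont_rad H.c1 x))⟩

lemma tsupp_line {v : E} {g g₁ : E → ℝ} (H : ∀ y, HasLineDerivAt ℝ g (g₁ y) y v) :
    tsupport g₁ ⊆ tsupport g := by
  refine closure_minimal (fun y hy => by_contra fun h => hy ?_) (isClosed_tsupport g)
  exact (H y).unique (((hasFDerivAt_const (0 : ℝ) y).hasLineDerivAt v).congr_of_eventuallyEq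
    (notMem_tsupport_iff_eventuallyEq.1 h))

lemma line_u {u : E → ℝ} (hu : ContDiffOn ℝ 2 u {0}ᶜ) {y : E} (hy : y ≠ 0) (v : E) :
    HasLineDerivAt ℝ u (fderiv ℝ u y v) y v ∧
      HasLineDerivAt ℝ (fun y => fderiv ℝ u y v) (fderiv ℝ (fderiv ℝ u) y v v) y v := by
  have h := hu.contDiffAt (isOpen_compl_singleton.mem_nhds hy)
  refine ⟨(h.differentiableAt (by norm_num)).hasFDerivAt.hasLineDerivAt v, ?_⟩
  simpa using ((((h.fderiv_right (m := 1) (by norm_num)).differentiableAt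
    (by norm_num)).hasFDerivAt.clm_apply (hasFDerivAt_const v y)).hasLineDerivAt v)

variable [FiniteDimensional ℝ E]

lemma lap_eq (u : E → ℝ) (y : E) : Δ u y = ∑ i, fderiv ℝ (fderiv ℝ u) y
    (stdOrthonormalBasis ℝ E i) (stdOrthonormalBasis ℝ E i) := by
  simp [InnerProductSpace.laplacian_eq_iteratedFDeriv_stdOrthonormalBasis, iteratedFDeriv_two_apply]

variable [MeasurableSpace E] [BorelSpace E]

lemma int_off {a g : E → ℝ} {K : Set E} (hK : IsCompact K) (h0 : (0 : E) ∉ K)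
    (ha : ContinuousOn a {0}ᶜ) (hg : Continuous g) (hs : tsupport g ⊆ K) :
    Integrable fun y => a y * g y :=
  (integrableOn_iff_integrable_of_support_subset (((Function.support_mul_subset_right a g).trans
    (subset_tsupport g)).trans hs)).1 (((ha.mono fun _ hy e => h0 (e ▸ hy)).mul
    hg.continuousOn).integrableOn_compact hK)

lemma Jet.green {u : E → ℝ} (hu : ContDiffOn ℝ 2 u {0}ᶜ) {v : E} {g g₁ g₂ : E → ℝ}
    (J : Jet v g g₁ g₂) (hK : HasCompactSupport g) (h0 : (0 : E) ∉ tsupport g) :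
    Integrable (fun y => fderiv ℝ (fderiv ℝ u) y v v * g y) ∧ Integrable (fun y => u y * g₂ y) ∧
      ∫ y, fderiv ℝ (fderiv ℝ u) y v v * g y = ∫ y, u y * g₂ y := by
  have s1 := tsupp_line J.d1
  have s2 := (tsupp_line J.d2).trans s1
  have u1 := hu.fderiv_of_isOpen (m := 1) isOpen_compl_singleton (by norm_num)
  have c1 : ContinuousOn (fun y => fderiv ℝ u y v) {0}ᶜ :=
    u1.continuousOn.clm_apply continuousOn_const
  have c2 : ContinuousOn (fun y => fderiv ℝ (fderiv ℝ u) y v v) {0}ᶜ :=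
    ((u1.continuousOn_fderiv_of_isOpen isOpen_compl_singleton le_rfl).clm_apply
      continuousOn_const).clm_apply continuousOn_const
  have i1 := int_off hK h0 c2 J.c0 le_rfl
  have i2 := int_off hK h0 c1 J.c1 s1
  have i3 := int_off hK h0 hu.continuousOn J.c2 s2
  have e1 := integral_bilinear_hasLineDerivAt_right_eq_neg_left_of_integrable
    (B := ContinuousLinearMap.mul ℝ ℝ) i1 i2 (int_off hK h0 c1 J.c0 le_rfl)
    (fun y hy => (line_u hu (fun e => h0 (e ▸ hy)) v).2) fun y _ => J.d1 y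
  have e2 := integral_bilinear_hasLineDerivAt_right_eq_neg_left_of_integrable
    (B := ContinuousLinearMap.mul ℝ ℝ) i2 i3 (int_off hK h0 hu.continuousOn J.c1 s1)
    (fun y hy => (line_u hu (fun e => h0 (s1 (e ▸ hy))) v).1) fun y _ => J.d2 y
  simp only [ContinuousLinearMap.mul_apply'] at e1 e2
  exact ⟨i1, i3, by rw [e2, e1, neg_neg]⟩

/-- the Laplacian of a radial function in terms of the squared radius -/
noncomputable def LL (n : ℝ) (h₁ h₂ : ℝ → ℝ) (w : ℝ) : ℝ := 4 * w * h₂ w + 2 * n * h₁ w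

lemma green2 {u : E → ℝ} (hu : ContDiffOn ℝ 2 u {0}ᶜ) (K : C2 k k₁ k₂) (H : C2 h h₁ h₂) (x : E)
    (hK : HasCompactSupport fun y : E => k (‖y‖ ^ 2) * h (‖y - x‖ ^ 2))
    (h0 : (0 : E) ∉ tsupport fun y : E => k (‖y‖ ^ 2) * h (‖y - x‖ ^ 2)) :
    Integrable (fun y => Δ u y * (k (‖y‖ ^ 2) * h (‖y - x‖ ^ 2))) ∧
      ∫ y, Δ u y * (k (‖y‖ ^ 2) * h (‖y - x‖ ^ 2)) =
      ∫ y, u y * (LL (finrank ℝ E) k₁ k₂ (‖y‖ ^ 2) * h (‖y - x‖ ^ 2) +
        8 * ⟪y, y - x⟫_ℝ * k₁ (‖y‖ ^ 2) * h₁ (‖y - x‖ ^ 2) +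
        k (‖y‖ ^ 2) * LL (finrank ℝ E) h₁ h₂ (‖y - x‖ ^ 2)) := by
  set b := stdOrthonormalBasis ℝ E
  have J := fun i => (K.jet 0 (b i)).mul (H.jet x (b i))
  simp only [sub_zero] at J
  have G := fun i => (J i).green hu hK h0
  simp only [lap_eq, Finset.sum_mul]
  refine ⟨integrable_finsetSum _ fun i _ => (G i).1, ?_⟩
  rw [integral_finsetSum _ fun i _ => (G i).1, Finset.sum_congr rfl fun i _ => (G i).2.2,
    ← integral_finsetSum _ fun i _ => (G i).2.1]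
  refine integral_congr_ae (Eventually.of_forall fun y => ?_)
  have e1 := b.sum_sq_inner_left y
  have e2 := b.sum_sq_inner_left (y - x)
  have e3 := b.sum_inner_mul_inner y (y - x)
  simp only [real_inner_comm (y - x) (b _)] at e3
  simp only [← Finset.mul_sum, b.norm_eq_one, LL]
  rw [← e3]
  generalize k (‖y‖ ^ 2) = a₀
  generalize k₁ (‖y‖ ^ 2) = a₁
  generalize k₂ (‖y‖ ^ 2) = a₂
  generalize h (‖y - x‖ ^ 2) = b₀
  generalize h₁ (‖y - x‖ ^ 2) = b₁
  generalize h₂ (‖y - x‖ ^ 2) = b₂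
  rw [← e1, ← e2]
  congr 1
  rw [Finset.sum_congr rfl (g := fun i => 4 * a₂ * b₀ * ⟪y, b i⟫_ℝ ^ 2 + 8 * a₁ * b₁ *
    (⟪y, b i⟫_ℝ * ⟪y - x, b i⟫_ℝ) + 4 * a₀ * b₂ * ⟪y - x, b i⟫_ℝ ^ 2 +
    (2 * a₁ * b₀ + 2 * a₀ * b₁)) fun i _ => by ring]
  simp only [Finset.sum_add_distrib, ← Finset.mul_sum, Finset.sum_const, Finset.card_univ,
    Fintype.card_fin, nsmul_eq_mul]
  ring

/-- a nonnegative supersolution with a removable origin -/
structure Sup (u f : E → ℝ) : Prop where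
  c2 : ContDiffOn ℝ 2 u {0}ᶜ
  c0 : Continuous u
  u0 : ∀ y, 0 ≤ u y
  mf : Measurable f
  f0 : ∀ y, 0 ≤ f y
  eq : ∀ y, y ≠ 0 → -Δ u y = f y

omit [MeasurableSpace E] [BorelSpace E] in
lemma cs_rad {S : ℝ} (hS0 : 0 ≤ S) (hS : ∀ w, S < w → h w = 0) (x : E) :
    HasCompactSupport fun y : E => h (‖y - x‖ ^ 2) := by
  have := FiniteDimensional.proper_real E
  refine HasCompactSupport.intro (isCompact_closedBall x (S + 1)) fun y hy => hS _ ?_
  rw [mem_closedBall_iff_norm, not_le] at hy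
  nlinarith

lemma C2.cL (H : C2 h h₁ h₂) (n : ℝ) : ContinuousOn (LL n h₁ h₂) (Ici 0) :=
  (ContinuousOn.mul (by fun_prop) H.c2).add (continuousOn_const.mul H.c1)

lemma green0 {u f : E → ℝ} (hu : Sup u f) (hn : 2 < finrank ℝ E) (H : C2 h h₁ h₂)
    (h0 : ∀ w, 0 ≤ w → 0 ≤ h w) {S : ℝ} (hS0 : 0 ≤ S) (hS : ∀ w, S < w → h w = 0) (x : E) :
    ∫⁻ y, ENNReal.ofReal (h (‖y - x‖ ^ 2) * f y) =
      ENNReal.ofReal (-∫ y, u y * LL (finrank ℝ E) h₁ h₂ (‖y - x‖ ^ 2)) ∧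
      ∫ y, u y * LL (finrank ℝ E) h₁ h₂ (‖y - x‖ ^ 2) ≤ 0 := by
  have : Nontrivial E := Module.nontrivial_of_finrank_pos (R := ℝ) (by omega)
  obtain ⟨s, s₁, s₂, M, K, s01, s0, s1, sM⟩ := exists_cut
  set n : ℝ := (finrank ℝ E : ℝ) with hn'
  have n0 : 0 ≤ n := Nat.cast_nonneg _
  obtain ⟨v1, v2⟩ := H.van hS0 hS
  have ae0 : ∀ᵐ y : E, y ≠ 0 := compl_mem_ae_iff.2 (measure_singleton 0)
  have K' := fun j : ℕ => K.scale (Nat.cast_nonneg j)
  have G := fun j : ℕ => green2 hu.c2 (K' j) H x (cs_rad hS0 hS x).mul_left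
    (notMem_tsupport_iff_eventuallyEq.2 (by
      have : ∀ᶠ y : E in 𝓝 0, (j : ℝ) * ‖y‖ ^ 2 < 1 :=
        ContinuousAt.eventually_lt (by fun_prop) (by fun_prop) (by simp)
      exact this.mono fun y hy => by simp [s0 _ hy.le]))
  have big : ∀ y : E, y ≠ 0 → ∀ᶠ j : ℕ in atTop, 2 < (j : ℝ) * ‖y‖ ^ 2 := fun y hy =>
    (tendsto_natCast_atTop_atTop.atTop_mul_const (by positivity)).eventually_gt_atTop 2
  have ch := cont_rad H.c0 x
  have ch1 := cont_rad H.c1 x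
  have cL := cont_rad (H.cL n) x
  have cu := hu.c0
  have ci : Continuous fun y => ⟪y, y - x⟫_ℝ := by fun_prop
  have T1 : Tendsto (fun j : ℕ => ∫ y, Δ u y * (s (j * ‖y‖ ^ 2) * h (‖y - x‖ ^ 2))) atTop
      (𝓝 (∫ y, u y * LL n h₁ h₂ (‖y - x‖ ^ 2))) := by
    simp only [(G _).2]
    refine tendsto_integral_filter_of_dominated_convergence (fun y => (u y * ((4 * M + 2 * n * M) *
      |h (‖y - x‖ ^ 2)| + 8 * |⟪y, y - x⟫_ℝ| * M * |h₁ (‖y - x‖ ^ 2)|)) • (‖y‖ ^ 2)⁻¹ +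
      u y * |LL n h₁ h₂ (‖y - x‖ ^ 2)|) (Eventually.of_forall fun j => ?_)
      (Eventually.of_forall fun j => ae0.mono fun y hy => ?_) (Integrable.add ?_ ?_)
      (ae0.mono fun y hy => tendsto_const_nhds.congr' ((big y hy).mono fun j hj => ?_))
    · have k0 := cont_rad (K' j).c0 (0 : E)
      have k1 := cont_rad (K' j).c1 (0 : E)
      have k2 := cont_rad ((K' j).cL n) (0 : E)
      simp only [sub_zero] at k0 k1 k2
      exact (cu.mul (((k2.mul ch).add (((continuous_const.mul ci).mul k1).mul ch1)).add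
        (k0.mul cL))).aestronglyMeasurable
    · have w0 : 0 < ‖y‖ ^ 2 := by positivity
      set w := ‖y‖ ^ 2
      obtain ⟨m1, m2⟩ := sM (j * w) (by positivity)
      have b1 : |j * s₁ (j * w)| ≤ M * w⁻¹ := by
        rw [← div_eq_mul_inv, le_div_iff₀ w0]
        refine le_trans (le_of_eq ?_) m1
        rw [mul_right_comm, abs_mul _ w, abs_of_pos w0]
      have b2 : |w * (j ^ 2 * s₂ (j * w))| ≤ M * w⁻¹ := by
        rw [← div_eq_mul_inv, le_div_iff₀ w0]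
        refine le_trans (le_of_eq ?_) m2
        rw [show (j * w) ^ 2 * s₂ (j * w) = w * (j ^ 2 * s₂ (j * w)) * w by ring, abs_mul _ w,
          abs_of_pos w0]
      have b3 : |LL n (fun w => j * s₁ (j * w)) (fun w => j ^ 2 * s₂ (j * w)) w| ≤
          (4 * M + 2 * n * M) * w⁻¹ := by
        refine (abs_add_le _ _).trans ?_
        rw [mul_assoc, abs_mul, abs_mul (2 * n), abs_of_nonneg (show 0 ≤ 2 * n by positivity),
          abs_of_pos (show (0 : ℝ) < 4 by norm_num)]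
        nlinarith
      have b4 : |s (j * w)| ≤ 1 := by rw [abs_of_nonneg (s01 _).1]; exact (s01 _).2
      rw [Real.norm_eq_abs, abs_mul, abs_of_nonneg (hu.u0 y), smul_eq_mul, mul_assoc (u y), ← mul_add]
      refine mul_le_mul_of_nonneg_left ((abs_add_three _ _ _).trans ?_) (hu.u0 y)
      rw [abs_mul, abs_mul, abs_mul, abs_mul, abs_mul (s _), add_mul,
        abs_of_pos (show (0 : ℝ) < 8 by norm_num)]
      calc _ ≤ (4 * M + 2 * n * M) * w⁻¹ * |h (‖y - x‖ ^ 2)| + 8 * |⟪y, y - x⟫_ℝ| * (M * w⁻¹) *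
            |h₁ (‖y - x‖ ^ 2)| + 1 * |LL n h₁ h₂ (‖y - x‖ ^ 2)| := by gcongr
        _ = _ := by ring
    · refine LocallyIntegrable.integrable_smul_left_of_hasCompactSupport
        (locallyIntegrable_of_norm_le_rpow (by omega) (C := 1) (α := 2) (by exact_mod_cast hn)
        (Eventually.of_forall fun y => by simp)
        (Measurable.aestronglyMeasurable (by fun_prop))) (cu.mul ((continuous_const.mul ch.abs).add
        (((continuous_const.mul ci.abs).mul continuous_const).mul ch1.abs))) ?_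
      exact ((cs_rad hS0 hS x).abs.mul_left.add (cs_rad hS0 v1 x).abs.mul_left).mul_left
    · exact (cu.mul cL.abs).integrable_of_hasCompactSupport (cs_rad (h := LL n h₁ h₂) hS0
        (fun w hw => by simp [LL, v1 w hw, v2 w hw]) x).abs.mul_left
    · simp [LL, s1 _ hj, hn']
  have e : ∀ j : ℕ, (fun y => s (j * ‖y‖ ^ 2) * (h (‖y - x‖ ^ 2) * f y)) =ᵐ[volume]
      fun y => -(Δ u y * (s (j * ‖y‖ ^ 2) * h (‖y - x‖ ^ 2))) := fun j =>
    ae0.mono fun y hy => by simp only [← hu.eq y hy]; ring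
  have p0 : ∀ (j : ℕ) y, 0 ≤ s (j * ‖y‖ ^ 2) * (h (‖y - x‖ ^ 2) * f y) := fun j y =>
    mul_nonneg (s01 _).1 (mul_nonneg (h0 _ (sq_nonneg _)) (hu.f0 y))
  have T2 := lim_cut (μ := volume) (l := atTop)
    (F := fun (j : ℕ) y => ENNReal.ofReal (s (j * ‖y‖ ^ 2) * (h (‖y - x‖ ^ 2) * f y)))
    (G := fun y => ENNReal.ofReal (h (‖y - x‖ ^ 2) * f y))
    (fun j => by
      have k0 := cont_rad (K' j).c0 (0 : E)
      simp only [sub_zero] at k0
      exact (k0.measurable.mul (ch.measurable.mul hu.mf)).ennreal_ofReal)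
    (Eventually.of_forall fun j => Eventually.of_forall fun y => ENNReal.ofReal_le_ofReal
      (mul_le_of_le_one_left (mul_nonneg (h0 _ (sq_nonneg _)) (hu.f0 y)) (s01 _).2))
    (ae0.mono fun y hy => tendsto_const_nhds.congr' ((big y hy).mono fun j hj => by
      simp [s1 _ hj]))
  refine ⟨tendsto_nhds_unique T2 ((ENNReal.tendsto_ofReal T1.neg).congr fun j => ?_),
    le_of_tendsto' T1 fun j => ?_⟩
  · rw [← integral_neg, ← integral_congr_ae (e j), ofReal_integral_eq_lintegral_ofReal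
      ((G j).1.neg.congr (e j).symm) (Eventually.of_forall (p0 j))]
  · rw [← neg_nonneg, ← integral_neg, ← integral_congr_ae (e j)]
    exact integral_nonneg (p0 j)

end Vale.Agent.P100
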