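import Vale.Agent.P100.Green
import Mathlib.Analysis.SpecialFunctions.Pow.Deriv

/-! Growth control for nonnegative supersolutions, and the Green identity on the whole space. -/

open MeasureTheory Set Real Filter Topology Metric Module
open scoped ENNReal

namespace Vale.Agent.P100

lemma hasDerivAt_max_sq (x : ℝ) : HasDerivAt (fun x : ℝ => max x 0 ^ 2) (2 * max x 0) x := by
  rcases lt_trichotomy x 0 with h | rfl | h
  · rw [max_eq_right h.le, mul_zero]
    exact (hasDerivAt_const x (0 : ℝ)).congr_of_eventuallyEq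
      ((eventually_lt_nhds h).mono fun y hy => by simp [hy.le])
  · rw [hasDerivAt_iff_isLittleO_nhds_zero]
    refine (Asymptotics.IsBigO.of_bound' (Eventually.of_forall fun y => ?_)).trans_isLittleO
      (Asymptotics.isLittleO_pow_id (𝕜 := ℝ) one_lt_two)
    rcases le_total y 0 with h | h <;> simp [h, sq_nonneg]
  · rw [max_eq_left h.le]
    exact ((hasDerivAt_pow 2 x).congr_deriv (by simp)).congr_of_eventuallyEq
      ((eventually_gt_nhds h).mono fun y hy => by simp [hy.le])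

lemma hasDerivAt_max_cube (x : ℝ) : HasDerivAt (fun x : ℝ => max x 0 ^ 3) (3 * max x 0 ^ 2) x := by
  have : (fun x : ℝ => max x 0 ^ 3) = fun x => x * max x 0 ^ 2 := by
    ext y; rcases le_total y 0 with h | h <;> simp [h, pow_succ']
  rw [this]
  refine ((hasDerivAt_id x).mul (hasDerivAt_max_sq x)).congr_deriv ?_
  rcases le_total x 0 with h | h <;> simp [h]
  ring

lemma C2_cut (c : ℝ) : C2 (fun w => max (1 - c * w) 0 ^ 3) (fun w => -3 * c * max (1 - c * w) 0 ^ 2)
    (fun w => 6 * c ^ 2 * max (1 - c * w) 0) :=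
  ⟨fun w _ => ((hasDerivAt_max_cube _).comp w (((hasDerivAt_id w).const_mul c).const_sub
    1)).congr_deriv (by simp only [id]; ring), fun w _ => (((hasDerivAt_max_sq _).comp w
    (((hasDerivAt_id w).const_mul c).const_sub 1)).const_mul _).congr_deriv
    (by simp only [id]; ring), by fun_prop⟩

lemma C2_pow {a : ℝ} (ha : 0 < a) (k : ℝ) : C2 (fun w => (w + a) ^ (-k))
    (fun w => -k * (w + a) ^ (-k - 1)) (fun w => k * (k + 1) * (w + a) ^ (-k - 2)) :=
  ⟨fun w hw => (((hasDerivAt_id w).add_const a).rpow_const (Or.inl (by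
    simp only [id]; positivity))).congr_deriv (by simp), fun w hw => ((((hasDerivAt_id w).add_const
    a).rpow_const (Or.inl (by simp only [id]; positivity))).const_mul _).congr_deriv (by
      simp only [id, show -k - 1 - 1 = -k - 2 by ring]; ring),
    continuousOn_const.mul (ContinuousOn.rpow_const (by fun_prop) fun w (hw : 0 ≤ w) =>
      Or.inl (by positivity))⟩

lemma cut_van {c w : ℝ} (hc : 0 < c) (hw : c⁻¹ < w) : max (1 - c * w) 0 ^ 3 = 0 := by
  rw [max_eq_right (by linarith [(inv_lt_iff_one_lt_mul₀' hc).1 hw])]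
  simp

lemma stage1 {m c w : ℝ} (hm : 0 < m) (hc : 0 < c) (hc1 : c ≤ 1) (hw : 0 ≤ w) :
    2 * (m + 1) * (max (1 - c * w) 0 ^ 3 * (w + 1) ^ (-m - 2)) ≤
      LL (2 * m + 2) (fun w => -(m + 1) * (w + 1) ^ (-(m + 1) - 1) * max (1 - c * w) 0 ^ 3 +
        (w + 1) ^ (-(m + 1)) * (-3 * c * max (1 - c * w) 0 ^ 2))
        (fun w => (m + 1) * (m + 1 + 1) * (w + 1) ^ (-(m + 1) - 2) * max (1 - c * w) 0 ^ 3 +
          2 * (-(m + 1) * (w + 1) ^ (-(m + 1) - 1) * (-3 * c * max (1 - c * w) 0 ^ 2)) +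
          (w + 1) ^ (-(m + 1)) * (6 * c ^ 2 * max (1 - c * w) 0)) w +
      (m + 1) * (4 * m + 18) * (Iic (2 * m + 3)).indicator 1 w := by
  have w1 : 0 < w + 1 := by positivity
  have P1 : (w + 1) ^ (-(m + 1) - 2) ≤ 1 :=
    rpow_le_one_of_one_le_of_nonpos (by linarith) (by linarith)
  have P0 : 0 < (w + 1) ^ (-(m + 1) - 2) := by positivity
  have e1 : (w + 1) ^ (-(m + 1) - 1) = (w + 1) ^ (-(m + 1) - 2) * (w + 1) := by
    rw [← rpow_add_one w1.ne']; congr 1; ring
  have e2 : (w + 1) ^ (-(m + 1)) = (w + 1) ^ (-(m + 1) - 2) * (w + 1) * (w + 1) := by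
    rw [← e1, ← rpow_add_one w1.ne']; congr 1; ring
  have z0 : 0 ≤ max (1 - c * w) 0 := le_max_right _ _
  have z1 : max (1 - c * w) 0 ≤ 1 := max_le (by nlinarith) zero_le_one
  rw [LL, show -m - 2 = -(m + 1) - 1 by ring, e1, e2]
  generalize (w + 1) ^ (-(m + 1) - 2) = P at *
  generalize max (1 - c * w) 0 = z at *
  have key : ∀ X, X * P ≤ (4 * m + 18) * (Iic (2 * m + 3)).indicator 1 w →
      (4 * m + 6 - 2 * w) * z ^ 3 + 12 * (c * z ^ 2) * (1 - w ^ 2) ≤ X → (m + 1) *
      (((4 * m + 6 - 2 * w) * z ^ 3 + 12 * (c * z ^ 2) * (1 - w ^ 2)) * P) ≤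
      (m + 1) * ((4 * m + 18) * (Iic (2 * m + 3)).indicator 1 w) := fun X h1 h2 =>
    mul_le_mul_of_nonneg_left ((mul_le_mul_of_nonneg_right h2 P0.le).trans h1) (by positivity)
  have z2 : c * z ^ 2 ≤ 1 := mul_le_one₀ hc1 (by positivity) (pow_le_one₀ z0 z1)
  have z3 : z ^ 3 ≤ 1 := pow_le_one₀ z0 z1
  have z4 : 0 ≤ c * z ^ 2 := by positivity
  have z5 : 0 ≤ z ^ 3 := by positivity
  have z6 : 0 ≤ c ^ 2 * z * w * (w + 1) ^ 2 * P := by positivity
  rcases le_or_gt w (2 * m + 3) with h | h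
  · have := key (4 * m + 18) (by
      rw [indicator_of_mem (show w ∈ Iic _ from h), Pi.one_apply]; gcongr) (by nlinarith)
    linarith
  · have := key 0 (by rw [indicator_of_notMem (show w ∉ Iic _ from h.not_ge)]; simp) (by
      have : 0 ≤ w ^ 2 - 1 := by nlinarith
      nlinarith)
    linarith

variable {E : Type} [NormedAddCommGroup E] [InnerProductSpace ℝ E] [FiniteDimensional ℝ E]
  [MeasurableSpace E] [BorelSpace E] {u f : E → ℝ} {m : ℝ}

lemma tend_cut (w : ℝ) : Tendsto (fun j : ℕ => max (1 - 1 / ((j : ℝ) + 1) * w) 0) atTop (𝓝 1) := by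
  simpa using (((tendsto_one_div_add_atTop_nhds_zero_nat (𝕜 := ℝ)).mul_const w).const_sub 1).max
    (tendsto_const_nhds (x := 0))

lemma growth (hu : Sup u f) (hm : 0 < m) (hn : (finrank ℝ E : ℝ) = 2 * m + 2) (x : E) :
    Integrable fun y => u y * (‖y - x‖ ^ 2 + 1) ^ (-m - 2) := by
  have h2 : 2 < finrank ℝ E := by exact_mod_cast (show (2 : ℝ) < finrank ℝ E by linarith)
  have := FiniteDimensional.proper_real E
  have cu := hu.c0
  have cr : Continuous fun y => (‖y - x‖ ^ 2 + 1) ^ (-m - 2) :=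
    Continuous.rpow_const (by fun_prop) fun y => Or.inl (by positivity)
  have p0 : ∀ y, 0 ≤ u y * (‖y - x‖ ^ 2 + 1) ^ (-m - 2) := fun y => by
    have := hu.u0 y; positivity
  have i0 : Integrable fun y => u y * ((m + 1) * (4 * m + 18) *
      (Iic (2 * m + 3)).indicator 1 (‖y - x‖ ^ 2)) := by
    simp only [← mul_assoc]
    refine (integrableOn_iff_integrable_of_support_subset (s := closedBall x (2 * m + 4))
      fun y hy => ?_).1 (Integrable.mul_bdd (c := 1) ?_ ?_ ?_)
    · rw [mem_closedBall_iff_norm]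
      by_contra h
      refine hy ?_
      simp only
      rw [indicator_of_notMem (show _ ∉ Iic _ from not_le.2 (by nlinarith)), mul_zero]
    · exact ContinuousOn.integrableOn_compact (isCompact_closedBall _ _) (by fun_prop)
    · exact ((measurable_const.indicator measurableSet_Iic).comp (by fun_prop)).aestronglyMeasurable
    · exact Eventually.of_forall fun y => (norm_indicator_le_norm_self _ _).trans (by simp)
  refine ⟨(cu.mul cr).aestronglyMeasurable, (hasFiniteIntegral_iff_ofReal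
    (Eventually.of_forall p0)).2 (lt_of_le_of_lt (le_of_tendsto' (lim_cut (l := atTop)
      (F := fun (j : ℕ) y => ENNReal.ofReal (max (1 - 1 / ((j : ℝ) + 1) * ‖y - x‖ ^ 2) 0 ^ 3 *
        (u y * (‖y - x‖ ^ 2 + 1) ^ (-m - 2)))) (fun j => by fun_prop)
      (Eventually.of_forall fun j => Eventually.of_forall fun y => ENNReal.ofReal_le_ofReal
        (mul_le_of_le_one_left (p0 y) (pow_le_one₀ (le_max_right _ _)
          (max_le (sub_le_self _ (by positivity)) zero_le_one))))
      (Eventually.of_forall fun y => ENNReal.tendsto_ofReal (by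
        simpa using ((tend_cut (‖y - x‖ ^ 2)).pow 3).mul_const _))) fun j => ?_)
      (ENNReal.ofReal_lt_top (r := (∫ y, u y * ((m + 1) * (4 * m + 18) *
        (Iic (2 * m + 3)).indicator 1 (‖y - x‖ ^ 2))) / (2 * (m + 1)))))⟩
  set c : ℝ := 1 / ((j : ℝ) + 1) with hc
  have c0 : 0 < c := by positivity
  have c1 : c ≤ 1 := by rw [hc, div_le_one (by positivity)]; simp
  have H := (C2_pow one_pos (m + 1)).mul (C2_cut c)
  have hv : ∀ w, c⁻¹ < w → (w + 1) ^ (-(m + 1)) * max (1 - c * w) 0 ^ 3 = 0 :=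
    fun w hw => by rw [cut_van c0 hw, mul_zero]
  have g := (green0 hu h2 H (fun w hw => by positivity) (by positivity) hv x).2
  obtain ⟨v1, v2⟩ := H.van (by positivity) hv
  have i1 := (cu.mul (cont_rad (H.cL (finrank ℝ E)) x)).integrable_of_hasCompactSupport
    (μ := volume) (cs_rad (S := c⁻¹) (by positivity) (fun w hw => by
      simp only [LL, v1 w hw, v2 w hw]; simp) x).mul_left
  have i2 : Integrable fun y => max (1 - c * ‖y - x‖ ^ 2) 0 ^ 3 *
      (u y * (‖y - x‖ ^ 2 + 1) ^ (-m - 2)) :=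
    Continuous.integrable_of_hasCompactSupport (Continuous.mul (by fun_prop) (cu.mul cr))
      (cs_rad (h := fun w => max (1 - c * w) 0 ^ 3) (by positivity) (fun w => cut_van c0)
        x).mul_right
  rw [← ofReal_integral_eq_lintegral_ofReal i2 (Eventually.of_forall fun y =>
    mul_nonneg (by positivity) (p0 y))]
  refine ENNReal.ofReal_le_ofReal ?_
  rw [le_div_iff₀ (by positivity), ← integral_mul_const]
  refine le_trans ?_ (add_le_of_nonpos_left g)
  refine (integral_mono (i2.mul_const _) (i1.add i0) fun y => ?_).trans_eq (integral_add i1 i0)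
  have := mul_le_mul_of_nonneg_left (stage1 hm c0 c1 (sq_nonneg ‖y - x‖)) (hu.u0 y)
  simp only [Pi.add_apply, Pi.mul_apply, hn]
  linarith

lemma green_inf (hu : Sup u f) (hm : 0 < m) (hn : (finrank ℝ E : ℝ) = 2 * m + 2) (x : E)
    {h h₁ h₂ : ℝ → ℝ} (H : C2 h h₁ h₂) {C : ℝ} (h0 : ∀ w, 0 ≤ w → 0 ≤ h w)
    (hb : ∀ w, 0 ≤ w → h w ≤ C * (w + 1) ^ (-m - 2) * (w + 1) ∧ |h₁ w| ≤ C * (w + 1) ^ (-m - 2) ∧
      |LL (2 * m + 2) h₁ h₂ w| ≤ C * (w + 1) ^ (-m - 2)) :
    ∫⁻ y, ENNReal.ofReal (h (‖y - x‖ ^ 2) * f y) =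
      ENNReal.ofReal (-∫ y, u y * LL (2 * m + 2) h₁ h₂ (‖y - x‖ ^ 2)) ∧
      ∫ y, u y * LL (2 * m + 2) h₁ h₂ (‖y - x‖ ^ 2) ≤ 0 := by
  have h2 : 2 < finrank ℝ E := by exact_mod_cast (show (2 : ℝ) < finrank ℝ E by linarith)
  have H' := fun j : ℕ => H.mul (C2_cut (1 / ((j : ℝ) + 1)))
  have G := fun j : ℕ => green0 hu h2 (H' j) (fun w hw => mul_nonneg (h0 w hw) (by positivity))
    (S := (1 / ((j : ℝ) + 1))⁻¹) (by positivity)
    (fun w hw => by rw [cut_van (by positivity) hw, mul_zero]) x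
  rw [hn] at G
  have T1 := tendsto_integral_filter_of_dominated_convergence (μ := volume) (l := atTop)
    (f := fun y => u y * LL (2 * m + 2) h₁ h₂ (‖y - x‖ ^ 2))
    (fun y => u y * (‖y - x‖ ^ 2 + 1) ^ (-m - 2) * (C * (169 + 24 * m)))
    (Eventually.of_forall fun j =>
      (hu.c0.mul (cont_rad ((H' j).cL (2 * m + 2)) x)).aestronglyMeasurable)
    (Eventually.of_forall fun j => Eventually.of_forall fun y => by
      have w0 := sq_nonneg ‖y - x‖
      simp only [Pi.mul_apply]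
      generalize ‖y - x‖ ^ 2 = w at *
      obtain ⟨b0, b1, b2⟩ := hb w w0
      have b3 := h0 w w0
      rw [Real.norm_eq_abs, abs_mul, abs_of_nonneg (hu.u0 y), mul_assoc]
      refine mul_le_mul_of_nonneg_left ?_ (hu.u0 y)
      set c : ℝ := 1 / ((j : ℝ) + 1) with hc
      have c0 : 0 < c := by positivity
      have c1 : c ≤ 1 := by rw [hc, div_le_one (by positivity)]; simp
      have R0 : 0 ≤ C * (w + 1) ^ (-m - 2) := (abs_nonneg _).trans b1
      rcases le_total (1 - c * w) 0 with e | e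
      · simp only [LL, max_eq_right e]
        simp only [ne_eq, OfNat.ofNat_ne_zero, not_false_eq_true, zero_pow, mul_zero, add_zero,
          abs_zero]
        nlinarith
      rw [show LL (2 * m + 2) (fun w => h₁ w * max (1 - c * w) 0 ^ 3 + h w *
        (-3 * c * max (1 - c * w) 0 ^ 2)) (fun w => h₂ w * max (1 - c * w) 0 ^ 3 + 2 * (h₁ w *
        (-3 * c * max (1 - c * w) 0 ^ 2)) + h w * (6 * c ^ 2 * max (1 - c * w) 0)) w =
        (1 - c * w) ^ 3 * LL (2 * m + 2) h₁ h₂ w + (-24 * (c * w * (1 - c * w) ^ 2) * h₁ w +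
        (24 * (c * w * (1 - c * w)) - 12 * (m + 1) * (1 - c * w) ^ 2) * (c * h w)) by
          simp only [LL, max_eq_left e]; ring]
      have cw : 0 ≤ c * w := by positivity
      have b4 : c * h w ≤ 2 * (C * (w + 1) ^ (-m - 2)) := by nlinarith
      have b5 : |c * h w| ≤ 2 * (C * (w + 1) ^ (-m - 2)) := by
        rwa [abs_of_nonneg (by positivity)]
      generalize c * w = t at *
      have t1 : |(1 - t) ^ 3| ≤ 1 := by
        rw [abs_of_nonneg (by positivity)]; exact pow_le_one₀ e (by linarith)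
      have t0 : (1 - t) ^ 2 ≤ 1 := pow_le_one₀ e (by linarith)
      have t2 : |-24 * (t * (1 - t) ^ 2)| ≤ 24 := abs_le.2 ⟨by nlinarith, by nlinarith⟩
      have t3 : |24 * (t * (1 - t)) - 12 * (m + 1) * (1 - t) ^ 2| ≤ 36 + 12 * m :=
        abs_le.2 ⟨by nlinarith, by nlinarith⟩
      refine (abs_add_le _ _).trans ((add_le_add le_rfl (abs_add_le _ _)).trans ?_)
      rw [abs_mul, abs_mul _ (h₁ w), abs_mul _ (c * h w)]
      calc _ ≤ 1 * (C * (w + 1) ^ (-m - 2)) + (24 * (C * (w + 1) ^ (-m - 2)) + (36 + 12 * m) *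
            (2 * (C * (w + 1) ^ (-m - 2)))) := by gcongr
        _ ≤ _ := by nlinarith)
    ((growth hu hm hn x).mul_const _)
    (Eventually.of_forall fun y => by
      have t0 := tendsto_one_div_add_atTop_nhds_zero_nat (𝕜 := ℝ)
      have t1 := tend_cut (‖y - x‖ ^ 2)
      simp only [Pi.mul_apply, LL]
      generalize ‖y - x‖ ^ 2 = w at *
      convert (((((((t1.pow 3).const_mul (h₂ w)).add ((((t0.const_mul (-3)).mul
        (t1.pow 2)).const_mul (h₁ w)).const_mul 2)).add ((((t0.pow 2).const_mul 6).mul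
        t1).const_mul (h w))).const_mul (4 * w)).add ((((t1.pow 3).const_mul (h₁ w)).add
        (((t0.const_mul (-3)).mul (t1.pow 2)).const_mul (h w))).const_mul
        (2 * (2 * m + 2)))).const_mul (u y)) using 2
      ring)
  have ch := (cont_rad H.c0 x).measurable
  have T2 := lim_cut (μ := volume) (l := atTop)
    (F := fun (j : ℕ) y => ENNReal.ofReal (h (‖y - x‖ ^ 2) *
      max (1 - 1 / ((j : ℝ) + 1) * ‖y - x‖ ^ 2) 0 ^ 3 * f y))
    (G := fun y => ENNReal.ofReal (h (‖y - x‖ ^ 2) * f y))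
    (fun j => ((ch.mul (by fun_prop)).mul hu.mf).ennreal_ofReal)
    (Eventually.of_forall fun j => Eventually.of_forall fun y => ENNReal.ofReal_le_ofReal
      (mul_le_mul_of_nonneg_right (mul_le_of_le_one_right (h0 _ (sq_nonneg _)) (pow_le_one₀
        (le_max_right _ _) (max_le (sub_le_self _ (by positivity)) zero_le_one))) (hu.f0 y)))
    (Eventually.of_forall fun y => ENNReal.tendsto_ofReal (by
      simpa using (((tend_cut (‖y - x‖ ^ 2)).pow 3).const_mul _).mul_const _))
  exact ⟨tendsto_nhds_unique T2 ((ENNReal.tendsto_ofReal T1.neg).congr fun j => (G j).1.symm),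
    le_of_tendsto' T1 fun j => (G j).2⟩

end Vale.Agent.P100
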