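import Mathlib.MeasureTheory.Measure.Lebesgue.Basic
import Mathlib.MeasureTheory.Group.LIntegral
import Mathlib.MeasureTheory.Measure.Prod
import Mathlib.Topology.Maps.Proper.Basic

/-! Level intervals of a continuous function along lines, and resampling inside them. -/

open MeasureTheory Set Filter Topology
open scoped ENNReal

namespace Vale.Agent.P100

lemma mAnd {X : Type} [MeasurableSpace X] {p q : X → Prop} (hp : MeasurableSet {x | p x})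
    (hq : MeasurableSet {x | q x}) : MeasurableSet {x | p x ∧ q x} := hp.inter hq

/-- a measurable family of disjoint bounded open intervals -/
structure IntSys {Y : Type} [MeasurableSpace Y] (O : Set (ℝ × Y)) (a b : ℝ × Y → ℝ) : Prop where
  mO : MeasurableSet O
  ma : Measurable a
  mb : Measurable b
  lt : ∀ ω ∈ O, a ω < ω.1 ∧ ω.1 < b ω
  inv : ∀ ω ∈ O, ∀ s ∈ Ioo (a ω) (b ω), (s, ω.2) ∈ O ∧ a (s, ω.2) = a ω ∧ b (s, ω.2) = b ω

lemma lintegral_affine {a b : ℝ} (hab : a < b) {g : ℝ → ℝ≥0∞} (hg : Measurable g) :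
    ∫⁻ s in Ioo (0 : ℝ) 1, g (a + s * (b - a)) =
      (ENNReal.ofReal (b - a))⁻¹ * ∫⁻ s in Ioo a b, g s := by
  have hL : 0 < b - a := sub_pos.2 hab
  have mg : Measurable ((Ioo a b).indicator g) := hg.indicator measurableSet_Ioo
  rw [← lintegral_indicator measurableSet_Ioo, ← lintegral_indicator measurableSet_Ioo,
    ← lintegral_add_left_eq_self ((Ioo a b).indicator g) a, ← ENNReal.ofReal_inv_of_pos hL,
    ← abs_of_pos (inv_pos.2 hL), ← smul_eq_mul, ← lintegral_smul_measure,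
    ← Real.map_volume_mul_right hL.ne', lintegral_map (by fun_prop) (by fun_prop)]
  refine lintegral_congr fun s => ?_
  have : s ∈ Ioo (0 : ℝ) 1 ↔ a + s * (b - a) ∈ Ioo a b := by
    simp only [mem_Ioo]
    constructor
    · rintro ⟨h1, h2⟩; constructor <;> nlinarith
    · rintro ⟨h1, h2⟩; constructor <;> nlinarith
  by_cases h : s ∈ Ioo (0 : ℝ) 1
  · rw [indicator_of_mem h, indicator_of_mem (this.1 h)]
  · rw [indicator_of_notMem h, indicator_of_notMem (this.not.1 h)]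

/-- a new point in the same interval -/
def resample {Y : Type} (a b : ℝ × Y → ℝ) (p : (ℝ × Y) × ℝ) : ℝ × Y :=
  (a p.1 + p.2 * (b p.1 - a p.1), p.1.2)

theorem IntSys.mp {Y : Type} [MeasurableSpace Y] {O : Set (ℝ × Y)} {a b : ℝ × Y → ℝ}
    (h : IntSys O a b) (ν : Measure Y) [SFinite ν] :
    MeasurePreserving (resample a b) (((volume.prod ν).restrict O).prod
      (volume.restrict (Ioo 0 1))) ((volume.prod ν).restrict O) := by
  have ma := h.ma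
  have mb := h.mb
  have mR : Measurable (resample a b) := by unfold resample; fun_prop
  refine ⟨mR, Measure.ext_of_lintegral _ fun g hg => ?_⟩
  rw [lintegral_map hg mR, lintegral_prod _ (by fun_prop)]
  set P : Set ((ℝ × Y) × ℝ) := {p | p.1 ∈ O ∧ a p.1 < p.2 ∧ p.2 < b p.1} with hP
  have mP : MeasurableSet P := mAnd (h.mO.preimage measurable_fst)
    (mAnd (measurableSet_lt (by fun_prop) measurable_snd)
      (measurableSet_lt measurable_snd (by fun_prop)))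
  set K : (ℝ × Y) × ℝ → ℝ≥0∞ := P.indicator fun p => (ENNReal.ofReal (b p.1 - a p.1))⁻¹ with hK
  have mK : Measurable K := Measurable.indicator (by fun_prop) mP
  have Ksymm : ∀ t s y, K ((t, y), s) = K ((s, y), t) := by
    have aux : ∀ t s y, ((t, y), s) ∈ P → ((s, y), t) ∈ P ∧ a (s, y) = a (t, y) ∧
        b (s, y) = b (t, y) := by
      rintro t s y ⟨h1, h2⟩
      obtain ⟨h3, h4, h5⟩ := h.inv _ h1 s h2
      exact ⟨⟨h3, by simpa [h4, h5] using h.lt _ h1⟩, h4, h5⟩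
    intro t s y
    by_cases h1 : ((t, y), s) ∈ P
    · obtain ⟨h2, h3, h4⟩ := aux t s y h1
      simp only [hK, indicator_of_mem h1, indicator_of_mem h2, h3, h4]
    · rw [hK, indicator_of_notMem h1, indicator_of_notMem fun h2 => h1 (aux s t y h2).1]
  have e1 : ∀ (G : ℝ → ℝ≥0∞), Measurable G → ∀ ω, ∫⁻ s, K (ω, s) * G s =
      O.indicator (fun ω => (ENNReal.ofReal (b ω - a ω))⁻¹ * ∫⁻ s in Ioo (a ω) (b ω), G s) ω := by
    intro G hG ω
    by_cases hω : ω ∈ O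
    · rw [indicator_of_mem hω, ← lintegral_const_mul _ hG, ← lintegral_indicator measurableSet_Ioo]
      refine lintegral_congr fun s => ?_
      by_cases hs : s ∈ Ioo (a ω) (b ω)
      · rw [hK, indicator_of_mem hs, indicator_of_mem (show (ω, s) ∈ P from ⟨hω, hs⟩)]
      · rw [hK, indicator_of_notMem hs, indicator_of_notMem (fun h' => hs h'.2), zero_mul]
    · rw [indicator_of_notMem hω]
      simp [hK, indicator_of_notMem (fun h' : (ω, _) ∈ P => hω h'.1)]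
  calc ∫⁻ ω in O, ∫⁻ s in Ioo (0 : ℝ) 1, g (resample a b (ω, s)) ∂volume ∂(volume.prod ν)
      = ∫⁻ ω, ∫⁻ s, K (ω, s) * g (s, ω.2) ∂volume ∂(volume.prod ν) := by
        rw [← lintegral_indicator h.mO]
        refine lintegral_congr fun ω => ?_
        rw [e1 _ (by fun_prop)]
        by_cases hω : ω ∈ O
        · rw [indicator_of_mem hω, indicator_of_mem hω]
          exact lintegral_affine ((h.lt ω hω).1.trans (h.lt ω hω).2) (g := fun s => g (s, ω.2))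
            (by fun_prop)
        · rw [indicator_of_notMem hω, indicator_of_notMem hω]
    _ = ∫⁻ y, ∫⁻ t, ∫⁻ s, K ((t, y), s) * g (s, y) ∂volume ∂volume ∂ν :=
        lintegral_prod_symm _ (Measurable.lintegral_prod_right' (f := fun p : (ℝ × Y) × ℝ =>
          K p * g (p.2, p.1.2)) (by fun_prop)).aemeasurable
    _ = ∫⁻ y, ∫⁻ s, O.indicator g (s, y) ∂volume ∂ν := by
        refine lintegral_congr fun y => ?_
        rw [lintegral_lintegral_swap (by fun_prop)]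
        refine lintegral_congr fun s => ?_
        simp only [Ksymm _ s y]
        rw [e1 _ measurable_const]
        by_cases hω : (s, y) ∈ O
        · have hL := sub_pos.2 ((h.lt _ hω).1.trans (h.lt _ hω).2)
          rw [indicator_of_mem hω, indicator_of_mem hω, setLIntegral_const, Real.volume_Ioo,
            mul_comm (g _), ← mul_assoc, ENNReal.inv_mul_cancel (by simpa using hL)
            ENNReal.ofReal_ne_top, one_mul]
        · rw [indicator_of_notMem hω, indicator_of_notMem hω]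
    _ = ∫⁻ ω in O, g ω ∂(volume.prod ν) := by
        rw [← lintegral_indicator h.mO, lintegral_prod_symm _ (hg.indicator h.mO).aemeasurable]

variable {Θ : Type} [TopologicalSpace Θ]

/-- right end point of the level interval -/
noncomputable def rt (φ : ℝ → Θ → ℝ) (ω : ℝ × Θ × ℝ) : ℝ :=
  sInf {s | ω.1 ≤ s ∧ φ s ω.2.1 ≤ ω.2.2}

/-- left end point of the level interval -/
noncomputable def lf (φ : ℝ → Θ → ℝ) (ω : ℝ × Θ × ℝ) : ℝ := - rt (fun s => φ (-s)) (-ω.1, ω.2)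

/-- the points under the graph whose level interval is bounded -/
def Om (φ : ℝ → Θ → ℝ) : Set (ℝ × Θ × ℝ) :=
  {ω | (0 < ω.2.2 ∧ ω.2.2 < φ ω.1 ω.2.1) ∧ (∃ s, ω.1 ≤ s ∧ φ s ω.2.1 ≤ ω.2.2) ∧
    ∃ s, s ≤ ω.1 ∧ φ s ω.2.1 ≤ ω.2.2}

omit [TopologicalSpace Θ] in
lemma rt_eq {φ : ℝ → Θ → ℝ} {ω : ℝ × Θ × ℝ} {β : ℝ} (h1 : ω.1 ≤ β) (h2 : φ β ω.2.1 ≤ ω.2.2)
    (h3 : ∀ s ∈ Ico ω.1 β, ω.2.2 < φ s ω.2.1) : rt φ ω = β :=
  IsLeast.csInf_eq ⟨⟨h1, h2⟩, fun s hs => not_lt.1 fun h => (h3 s ⟨hs.1, h⟩).not_ge hs.2⟩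

omit [TopologicalSpace Θ] in
lemma rt_spec {φ : ℝ → Θ → ℝ} {ω : ℝ × Θ × ℝ} (hc : Continuous fun s => φ s ω.2.1)
    (h1 : ω.2.2 < φ ω.1 ω.2.1) (h2 : ∃ s, ω.1 ≤ s ∧ φ s ω.2.1 ≤ ω.2.2) :
    ω.1 < rt φ ω ∧ φ (rt φ ω) ω.2.1 = ω.2.2 ∧ ∀ s ∈ Ico ω.1 (rt φ ω), ω.2.2 < φ s ω.2.1 := by
  have hb : BddBelow {s | ω.1 ≤ s ∧ φ s ω.2.1 ≤ ω.2.2} := ⟨ω.1, fun s hs => hs.1⟩
  have hm : rt φ ω ∈ {s | ω.1 ≤ s ∧ φ s ω.2.1 ≤ ω.2.2} :=
    IsClosed.csInf_mem (isClosed_Ici.inter (isClosed_le hc continuous_const)) h2 hb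
  have h3 : ∀ s ∈ Ico ω.1 (rt φ ω), ω.2.2 < φ s ω.2.1 := fun s hs =>
    not_le.1 fun h => hs.2.not_ge (csInf_le hb ⟨hs.1, h⟩)
  have h4 : ω.1 < rt φ ω := lt_of_le_of_ne hm.1 fun e => h1.not_ge (e ▸ hm.2)
  refine ⟨h4, le_antisymm hm.2 ?_, h3⟩
  have : rt φ ω ∈ closure (Ico ω.1 (rt φ ω)) := by
    rw [closure_Ico h4.ne]; exact ⟨h4.le, le_rfl⟩
  exact (isClosed_le continuous_const hc).closure_subset_iff.2 (fun s hs => (h3 s hs).le) this

lemma isClosed_hit {φ : ℝ → Θ → ℝ} (hc : Continuous (Function.uncurry φ)) (r : ℝ) :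
    IsClosed {ω : ℝ × Θ × ℝ | ∃ s, ω.1 ≤ s ∧ s ≤ r ∧ φ s ω.2.1 ≤ ω.2.2} := by
  have : {ω : ℝ × Θ × ℝ | ∃ s, ω.1 ≤ s ∧ s ≤ r ∧ φ s ω.2.1 ≤ ω.2.2} = Prod.fst ''
      {p : (ℝ × Θ × ℝ) × Icc (0 : ℝ) 1 | p.1.1 ≤ r ∧
        φ (p.1.1 + p.2 * (r - p.1.1)) p.1.2.1 ≤ p.1.2.2} := by
    ext ω
    constructor
    · rintro ⟨s, h1, h2, h3⟩
      rcases (h1.trans h2).eq_or_lt with e | e
      · refine ⟨(ω, 0), ⟨e.le, ?_⟩, rfl⟩
        simpa [le_antisymm h1 (h2.trans e.ge)] using h3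
      · have hL := sub_pos.2 e
        refine ⟨(ω, ⟨(s - ω.1) / (r - ω.1), div_nonneg (sub_nonneg.2 h1) hL.le,
          (div_le_one hL).2 (by linarith)⟩), ⟨e.le, ?_⟩, rfl⟩
        simpa [div_mul_cancel₀ _ hL.ne'] using h3
    · rintro ⟨⟨ω, σ⟩, ⟨h1, h2⟩, rfl⟩
      have := σ.2.1
      have := σ.2.2
      exact ⟨_, by dsimp only at h1 ⊢; nlinarith, by dsimp only at h1 ⊢; nlinarith, h2⟩
  rw [this]
  refine isClosedMap_fst_of_compactSpace _ (IsClosed.and (isClosed_le (by fun_prop) continuous_const)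
    (isClosed_le ?_ (by fun_prop)))
  exact hc.comp (f := fun p : (ℝ × Θ × ℝ) × Icc (0 : ℝ) 1 =>
    (p.1.1 + p.2 * (r - p.1.1), p.1.2.1)) (by fun_prop)

variable [MeasurableSpace Θ] [BorelSpace Θ] [SecondCountableTopology Θ]

lemma measurableSet_hit {φ : ℝ → Θ → ℝ} (hc : Continuous (Function.uncurry φ)) :
    MeasurableSet {ω : ℝ × Θ × ℝ | ∃ s, ω.1 ≤ s ∧ φ s ω.2.1 ≤ ω.2.2} := by
  have : {ω : ℝ × Θ × ℝ | ∃ s, ω.1 ≤ s ∧ φ s ω.2.1 ≤ ω.2.2} =
      ⋃ k : ℕ, {ω : ℝ × Θ × ℝ | ∃ s, ω.1 ≤ s ∧ s ≤ k ∧ φ s ω.2.1 ≤ ω.2.2} := by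
    ext ω
    simp only [mem_iUnion, mem_ofPred_eq]
    exact ⟨fun ⟨s, h1, h2⟩ => ⟨⌈s⌉₊, s, h1, Nat.le_ceil s, h2⟩,
      fun ⟨_, s, h1, _, h2⟩ => ⟨s, h1, h2⟩⟩
  rw [this]
  exact MeasurableSet.iUnion fun k => (isClosed_hit hc k).measurableSet

lemma measurable_rt {φ : ℝ → Θ → ℝ} (hc : Continuous (Function.uncurry φ)) : Measurable (rt φ) := by
  refine measurable_of_Iic fun r => ?_
  have : rt φ ⁻¹' Iic r = {ω : ℝ × Θ × ℝ | ∃ s, ω.1 ≤ s ∧ s ≤ r ∧ φ s ω.2.1 ≤ ω.2.2} ∪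
      ({ω : ℝ × Θ × ℝ | ∃ s, ω.1 ≤ s ∧ φ s ω.2.1 ≤ ω.2.2}ᶜ ∩ {_ω | 0 ≤ r}) := by
    ext ω
    have hb : BddBelow {s | ω.1 ≤ s ∧ φ s ω.2.1 ≤ ω.2.2} := ⟨ω.1, fun s hs => hs.1⟩
    by_cases h : ∃ s, ω.1 ≤ s ∧ φ s ω.2.1 ≤ ω.2.2
    · have hm : rt φ ω ∈ {s | ω.1 ≤ s ∧ φ s ω.2.1 ≤ ω.2.2} :=
        IsClosed.csInf_mem (isClosed_Ici.inter (isClosed_le
          (hc.comp (f := fun s : ℝ => (s, ω.2.1)) (by fun_prop)) continuous_const)) h hb
      simp only [mem_preimage, mem_Iic, mem_union, mem_ofPred_eq, mem_inter_iff, mem_compl_iff, h,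
        not_true, false_and, or_false]
      exact ⟨fun h' => ⟨_, hm.1, h', hm.2⟩, fun ⟨s, h1, h2, h3⟩ => (csInf_le hb ⟨h1, h3⟩).trans h2⟩
    · have e : rt φ ω = 0 := by
        rw [rt, eq_empty_of_forall_notMem (s := {s | ω.1 ≤ s ∧ φ s ω.2.1 ≤ ω.2.2})
          fun s hs => h ⟨s, hs⟩, Real.sInf_empty]
      simp only [mem_preimage, mem_Iic, mem_union, mem_ofPred_eq, mem_inter_iff, mem_compl_iff, h,
        not_false_eq_true, true_and, e]
      exact ⟨Or.inr, fun h' => h'.resolve_left fun ⟨s, h1, _, h3⟩ => h ⟨s, h1, h3⟩⟩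
  rw [this]
  exact (isClosed_hit hc r).measurableSet.union
    ((measurableSet_hit hc).compl.inter (MeasurableSet.const _))

omit [MeasurableSpace Θ] [BorelSpace Θ] [SecondCountableTopology Θ] in
lemma Om_spec {φ : ℝ → Θ → ℝ} (hc : Continuous (Function.uncurry φ)) {ω : ℝ × Θ × ℝ}
    (h : ω ∈ Om φ) : (lf φ ω < ω.1 ∧ ω.1 < rt φ ω) ∧ φ (lf φ ω) ω.2.1 = ω.2.2 ∧
      φ (rt φ ω) ω.2.1 = ω.2.2 ∧ ∀ s ∈ Ioo (lf φ ω) (rt φ ω), ω.2.2 < φ s ω.2.1 := by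
  have c1 : Continuous fun s => φ s ω.2.1 := hc.comp (f := fun s : ℝ => (s, ω.2.1)) (by fun_prop)
  obtain ⟨r1, r2, r3⟩ := rt_spec c1 h.1.2 h.2.1
  obtain ⟨l1, l2, l3⟩ := rt_spec (φ := fun s => φ (-s)) (ω := (-ω.1, ω.2))
    (c1.comp continuous_neg) (by simpa using h.1.2)
    (by obtain ⟨s, h1, h2⟩ := h.2.2; exact ⟨-s, by simpa, by simpa⟩)
  refine ⟨⟨neg_lt.1 l1, r1⟩, l2, r2, fun s hs => ?_⟩
  rcases le_total ω.1 s with e | e
  · exact r3 s ⟨e, hs.2⟩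
  · simpa using l3 (-s) ⟨neg_le_neg e, neg_lt.1 hs.1⟩

theorem intSys {φ : ℝ → Θ → ℝ} (hc : Continuous (Function.uncurry φ)) :
    IntSys (Om φ) (lf φ) (rt φ) := by
  have hc' : Continuous (Function.uncurry fun s => φ (-s)) :=
    hc.comp (f := fun p : ℝ × Θ => (-p.1, p.2)) (by fun_prop)
  have mφ : Measurable fun ω : ℝ × Θ × ℝ => φ ω.1 ω.2.1 :=
    (hc.comp (f := fun ω : ℝ × Θ × ℝ => (ω.1, ω.2.1)) (by fun_prop)).measurable
  refine ⟨mAnd (mAnd (measurableSet_lt measurable_const (by fun_prop))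
    (measurableSet_lt (by fun_prop) mφ)) (mAnd (measurableSet_hit hc) ?_),
    ((measurable_rt hc').comp (by fun_prop)).neg, measurable_rt hc,
    fun ω h => (Om_spec hc h).1, fun ω h s hs => ?_⟩
  · convert (measurableSet_hit hc').preimage
      (f := fun ω : ℝ × Θ × ℝ => (-ω.1, ω.2)) (by fun_prop) using 1
    ext ω
    exact ⟨fun ⟨s, h1, h2⟩ => ⟨-s, by simpa, by simpa⟩,
      fun ⟨s, h1, h2⟩ => ⟨-s, neg_le.1 h1, h2⟩⟩
  · obtain ⟨-, h2, h3, h4⟩ := Om_spec hc h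
    refine ⟨⟨⟨h.1.1, h4 s hs⟩, ⟨_, hs.2.le, h3.le⟩, ⟨_, hs.1.le, h2.le⟩⟩, ?_,
      rt_eq hs.2.le h3.le fun s' hs' => h4 s' ⟨hs.1.trans_le hs'.1, hs'.2⟩⟩
    refine neg_eq_iff_eq_neg.2 (rt_eq (neg_le_neg hs.1.le) (by simpa using h2.le) fun s' hs' => ?_)
    exact h4 _ ⟨lt_neg.1 hs'.2, (neg_le.1 hs'.1).trans_lt hs.2⟩

theorem lintegral_Om {φ : ℝ → Θ → ℝ} (hc : Continuous (Function.uncurry φ)) (σ : Measure Θ)
    [SFinite σ] (hfin : ∫⁻ p, ENNReal.ofReal (φ p.1 p.2) ∂(volume.prod σ) ≠ ∞)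
    {h : ℝ × Θ → ℝ≥0∞} (hm : Measurable h) :
    ∫⁻ ω in Om φ, h (ω.1, ω.2.1) ∂(volume.prod (σ.prod volume)) =
      ∫⁻ p, h p * ENNReal.ofReal (φ p.1 p.2) ∂(volume.prod σ) := by
  have mφ : Measurable fun p : ℝ × Θ => φ p.1 p.2 := hc.measurable
  set S : Set (ℝ × Θ × ℝ) := {ω | 0 < ω.2.2 ∧ ω.2.2 < φ ω.1 ω.2.1} with hS
  have mS : MeasurableSet S := mAnd (measurableSet_lt measurable_const (by fun_prop))
    (measurableSet_lt (by fun_prop) (mφ.comp (f := fun ω : ℝ × Θ × ℝ => (ω.1, ω.2.1))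
      (by fun_prop)))
  have h1 : ∀ᵐ θ ∂σ, ∫⁻ t, ENNReal.ofReal (φ t θ) < ∞ := by
    rw [lintegral_prod_symm _ (by fun_prop)] at hfin
    exact ae_lt_top (Measurable.lintegral_prod_left' (f := fun p : ℝ × Θ =>
      ENNReal.ofReal (φ p.1 p.2)) (by fun_prop)) hfin
  have h2 : Om φ =ᵐ[volume.prod (σ.prod volume)] S := by
    filter_upwards [Measure.quasiMeasurePreserving_snd.ae
      (Measure.quasiMeasurePreserving_fst.ae h1)] with ω hω
    refine propext ⟨fun h => h.1, fun h => ?_⟩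
    have key : ∀ A : Set ℝ, MeasurableSet A → volume A = ∞ → ∃ s ∈ A, φ s ω.2.1 ≤ ω.2.2 := by
      intro A mA hA
      by_contra hcon
      push Not at hcon
      refine hω.not_ge ?_
      calc ∞ = ∫⁻ _ in A, ENNReal.ofReal ω.2.2 := by
            rw [setLIntegral_const, hA, ENNReal.mul_top (by simpa using h.1)]
        _ ≤ ∫⁻ t in A, ENNReal.ofReal (φ t ω.2.1) :=
            setLIntegral_mono' mA fun s hs => ENNReal.ofReal_le_ofReal (hcon s hs).le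
        _ ≤ _ := setLIntegral_le_lintegral _ _
    exact ⟨h, key (Ici ω.1) measurableSet_Ici (by simp), key (Iic ω.1) measurableSet_Iic (by simp)⟩
  have m2 : Measurable (S.indicator fun ω => h (ω.1, ω.2.1)) :=
    Measurable.indicator (by fun_prop) mS
  rw [setLIntegral_congr h2, ← lintegral_indicator mS, lintegral_prod _ m2.aemeasurable,
    lintegral_prod _ (by fun_prop)]
  refine lintegral_congr fun t => ?_
  rw [lintegral_prod _ (by fun_prop)]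
  refine lintegral_congr fun θ => ?_
  have : ∀ τ, S.indicator (fun ω => h (ω.1, ω.2.1)) (t, θ, τ) =
      (Ioo 0 (φ t θ)).indicator (fun _ => h (t, θ)) τ := fun τ => rfl
  simp only [this]
  rw [lintegral_indicator measurableSet_Ioo, setLIntegral_const, Real.volume_Ioo, sub_zero]

end Vale.Agent.P100
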