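import Mathlib.Analysis.SpecialFunctions.Pow.Deriv
import Mathlib.Analysis.SpecialFunctions.Trigonometric.DerivHyp
import Mathlib.MeasureTheory.Integral.IntervalIntegral.FundThmCalculus
import Mathlib.Analysis.Calculus.Deriv.MeanValue

/-! The tilted Newton kernel on the cylinder and the inequality for a pair of intervals. -/

open MeasureTheory Set Real

namespace Vale.Agent.P100

/-- the squared distance on the cylinder -/
noncomputable def Dk (s c : ℝ) : ℝ := 2 * cosh s - 2 * c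

/-- the tilted kernel -/
noncomputable def ker (m κ s c : ℝ) : ℝ := exp (κ * s) * Dk s c ^ (-m)

lemma Dk_pos {c : ℝ} (hc : c < 1) (s : ℝ) : 0 < Dk s c := by
  have := one_le_cosh s
  unfold Dk; linarith

lemma Dk_nonneg {c : ℝ} (hc : c ≤ 1) (s : ℝ) : 0 ≤ Dk s c := by
  have := one_le_cosh s
  unfold Dk; linarith

lemma ker_pos {c : ℝ} (hc : c < 1) (m κ s : ℝ) : 0 < ker m κ s c :=
  mul_pos (exp_pos _) (rpow_pos_of_pos (Dk_pos hc s) _)

lemma ker_nonneg {c : ℝ} (hc : c ≤ 1) (m κ s : ℝ) : 0 ≤ ker m κ s c :=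
  mul_nonneg (exp_pos _).le (rpow_nonneg (Dk_nonneg hc s) _)

lemma ker_neg (m κ s c : ℝ) : ker m (-κ) s c = ker m κ (-s) c := by simp [ker, Dk]

@[fun_prop]
lemma measurable_ker {X : Type} [MeasurableSpace X] (m κ : ℝ) {f g : X → ℝ} (hf : Measurable f)
    (hg : Measurable g) : Measurable fun x => ker m κ (f x) (g x) := by
  unfold ker Dk; fun_prop

lemma hasDerivAt_ker {c : ℝ} (hc : c < 1) (m κ s : ℝ) :
    HasDerivAt (fun s => ker m κ s c) ((κ - m * (2 * sinh s) / Dk s c) * ker m κ s c) s := by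
  have hD := Dk_pos hc s
  have h1 : HasDerivAt (fun s => Dk s c) (2 * sinh s) s :=
    ((hasDerivAt_cosh s).const_mul 2).sub_const _
  have h2 := (((hasDerivAt_id s).const_mul κ).exp).mul (h1.rpow_const (p := -m) (Or.inl hD.ne'))
  refine HasDerivAt.congr_deriv h2 ?_
  simp only [ker, id, rpow_sub_one hD.ne']
  field_simp
  ring

lemma continuous_ker {c : ℝ} (hc : c < 1) (m κ : ℝ) : Continuous fun s => ker m κ s c :=
  continuous_iff_continuousAt.2 fun s => (hasDerivAt_ker hc m κ s).continuousAt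

lemma rpow_Dk_le {c m s s' : ℝ} (hc : c < 1) (hm : 0 ≤ m) (h : |s| ≤ |s'|) :
    Dk s' c ^ (-m) ≤ Dk s c ^ (-m) :=
  rpow_le_rpow_of_nonpos (Dk_pos hc s) (by
    have := cosh_le_cosh.2 h
    unfold Dk; linarith) (by linarith)

lemma ker_good {c m κ z r : ℝ} (hc : c < 1) (hm : 0 ≤ m) (hκ : 0 ≤ κ) (hz : z ≤ 0) (hr : 0 ≤ r) :
    ker m κ (z - r) c ≤ ker m κ (z + r) c :=
  mul_le_mul (exp_le_exp.2 (by nlinarith)) (rpow_Dk_le hc hm (by
    rw [abs_of_nonpos (show z - r ≤ 0 by linarith), abs_le]; constructor <;> linarith))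
    (rpow_nonneg (Dk_pos hc _).le _) (exp_pos _).le

lemma ker_bad {c m κ z r : ℝ} (hc : c < 1) (hm : 0 ≤ m) (hz : 0 ≤ z) (hr : 0 ≤ r) :
    ker m κ (z + r) c - ker m κ (z - r) c ≤ (1 - exp (-(2 * κ * r))) * ker m κ (z + r) c := by
  have h := rpow_Dk_le (s := z - r) (s' := z + r) hc hm (by
    rw [abs_of_nonneg (show 0 ≤ z + r by linarith), abs_le]; constructor <;> linarith)
  have e : exp (κ * (z - r)) = exp (-(2 * κ * r)) * exp (κ * (z + r)) := by
    rw [← exp_add]; congr 1; ring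
  have := mul_le_mul_of_nonneg_left h (exp_pos (κ * (z - r))).le
  unfold ker
  rw [e] at this ⊢
  linarith

lemma ker_wrong {c m κ z r : ℝ} (hc : c < 1) (hm : 0 < m) (hκ : 0 ≤ κ) (hκm : κ ≤ m) (hz : 0 < z)
    (hr : 0 ≤ r) (h : ker m κ (z - r) c < ker m κ (z + r) c) {N : ℕ} (hN : m ≤ N) :
    min 1 z ^ N * ker m κ (z + r) c ≤ 2 ^ m := by
  have p1 := Dk_pos hc (z + r)
  have p2 := Dk_pos hc (z - r)
  have h1 : exp (-(2 * r)) * Dk (z + r) c < Dk (z - r) c := by
    by_contra hcon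
    refine h.not_ge ?_
    have h2 := rpow_le_rpow_of_nonpos p2 (not_lt.1 hcon) (show -m ≤ 0 by linarith)
    rw [mul_rpow (exp_pos _).le p1.le, ← exp_mul] at h2
    refine le_trans ?_ (mul_le_mul_of_nonneg_left h2 (exp_pos _).le)
    rw [← mul_assoc, ← exp_add]
    exact mul_le_mul_of_nonneg_right (exp_le_exp.2 (by nlinarith)) (rpow_nonneg p1.le _)
  have h2 : Dk (z + r) c - Dk (z - r) c = 4 * (sinh z * sinh r) := by
    simp only [Dk, cosh_add, cosh_sub]; ring
  have h3 := add_one_le_exp (-(2 * r))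
  have h4 : z * r ≤ sinh z * sinh r :=
    mul_le_mul (self_le_sinh_iff.2 hz.le) (self_le_sinh_iff.2 hr) hr (sinh_nonneg_iff.2 hz.le)
  have h5 : 4 * (z * r) < 2 * r * Dk (z + r) c := by nlinarith
  have h6 : 2 * z ≤ Dk (z + r) c := by
    by_contra hcon
    nlinarith
  have w0 : 0 < min 1 z := lt_min one_pos hz
  have w1 : min 1 z ≤ 1 := min_le_left _ _
  have w2 : min 1 z ≤ z := min_le_right _ _
  have h7 : exp (z + r) * min 1 z / 2 ≤ Dk (z + r) c := by
    have e0 := exp_pos (z + r)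
    rcases le_total (exp (z + r)) 4 with h8 | h8
    · nlinarith
    · have := exp_pos (-(z + r))
      rw [Dk, cosh_eq]
      nlinarith
  have h8 := rpow_le_rpow_of_nonpos (by positivity) h7 (show -m ≤ 0 by linarith)
  rw [div_rpow (by positivity) (by norm_num), mul_rpow (exp_pos _).le w0.le, ← exp_mul,
    rpow_neg (show (0 : ℝ) ≤ 2 by norm_num), div_inv_eq_mul] at h8
  have h9 : min 1 z ^ N * min 1 z ^ (-m) ≤ 1 := by
    rw [← rpow_natCast, ← rpow_add w0]
    exact rpow_le_one w0.le w1 (by linarith)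
  have h10 : exp (κ * (z + r)) * exp ((z + r) * -m) ≤ 1 := by
    rw [← exp_add]; exact exp_le_one_iff.2 (by nlinarith)
  calc min 1 z ^ N * ker m κ (z + r) c
      ≤ min 1 z ^ N * (exp (κ * (z + r)) * (exp ((z + r) * -m) * min 1 z ^ (-m) * 2 ^ m)) := by
        unfold ker; gcongr
    _ = (min 1 z ^ N * min 1 z ^ (-m)) * (exp (κ * (z + r)) * exp ((z + r) * -m)) * 2 ^ m := by ring
    _ ≤ 1 * 1 * 2 ^ m := by gcongr
    _ = 2 ^ m := by ring

/-- the cutoff applied to the centers of the intervals -/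
noncomputable def beta (N : ℕ) (T x : ℝ) : ℝ := max 0 (min 1 (T + 1 - x)) ^ N

lemma beta_nonneg (N : ℕ) (T x : ℝ) : 0 ≤ beta N T x := pow_nonneg (le_max_left _ _) _

lemma beta_le_one (N : ℕ) (T x : ℝ) : beta N T x ≤ 1 :=
  pow_le_one₀ (le_max_left _ _) (max_le zero_le_one (min_le_left _ _))

lemma beta_anti (N : ℕ) (T : ℝ) {x x' : ℝ} (h : x' ≤ x) : beta N T x ≤ beta N T x' := by
  unfold beta; gcongr

lemma beta_one (N : ℕ) {T x : ℝ} (h : x ≤ T) : beta N T x = 1 := by
  rw [beta, min_eq_left (by linarith), max_eq_right zero_le_one, one_pow]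

lemma beta_zero {N : ℕ} (hN : N ≠ 0) {T x : ℝ} (h : T + 1 ≤ x) : beta N T x = 0 := by
  rw [beta, max_eq_left (min_le_of_right_le (by linarith)), zero_pow hN]

lemma beta_diff (N : ℕ) {ε : ℝ} (hε : 0 < ε) : ∃ C ≥ 0, ∀ T x x', x' ≤ x →
    beta N T x' ≤ (1 + ε) * beta N T x + C * min 1 (x - x') ^ N := by
  obtain ⟨η, η0, hη⟩ : ∃ η > 0, (1 + η : ℝ) ^ N ≤ 1 + ε := by
    have : Filter.Tendsto (fun η : ℝ => (1 + η) ^ N) (nhdsWithin 0 (Ioi 0)) (nhds ((1 + 0) ^ N)) :=
      (Continuous.tendsto (by fun_prop) 0).mono_left nhdsWithin_le_nhds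
    obtain ⟨η, h1, h2⟩ := ((this.eventually (gt_mem_nhds (show (1 + 0 : ℝ) ^ N < 1 + ε by
      simpa using hε))).and self_mem_nhdsWithin).exists
    exact ⟨η, h2, h1.le⟩
  refine ⟨(1 + η⁻¹) ^ N, by positivity, fun T x x' h => ?_⟩
  set A := max 0 (min 1 (T + 1 - x)) with hA
  set w := min 1 (x - x') with hw
  have A0 : 0 ≤ A := le_max_left _ _
  have w0 : 0 ≤ w := le_min zero_le_one (by linarith)
  have h1 : max 0 (min 1 (T + 1 - x')) ≤ A + w := by
    simp only [hA, hw, max_def, min_def]; split_ifs <;> linarith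
  have h2 : beta N T x' ≤ (A + w) ^ N := pow_le_pow_left₀ (le_max_left _ _) h1 N
  change _ ≤ (1 + ε) * A ^ N + _
  rcases le_total w (η * A) with h3 | h3
  · have : (A + w) ^ N ≤ ((1 + η) * A) ^ N := by gcongr; linarith
    rw [mul_pow] at this
    nlinarith [pow_nonneg A0 N, mul_nonneg (show 0 ≤ (1 + η⁻¹) ^ N by positivity) (pow_nonneg w0 N)]
  · have h4 : A ≤ η⁻¹ * w := by rw [le_inv_mul_iff₀ η0]; exact h3
    have : (A + w) ^ N ≤ ((1 + η⁻¹) * w) ^ N := by gcongr; linarith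
    rw [mul_pow] at this
    nlinarith [pow_nonneg A0 N]

lemma one_sub_exp_le {a σ : ℝ} (ha : 0 ≤ a) (hσ : 0 < σ) : ∃ C > 0, ∀ r L, 0 ≤ r → r ≤ L →
    1 - exp (-(a * r)) ≤ C * (1 - exp (-(σ * L))) := by
  refine ⟨1 + a / σ, by positivity, fun r L hr hL => ?_⟩
  have h1 := add_one_le_exp (-(a * r))
  have h2 := exp_pos (-(a * r))
  have h3 := add_one_le_exp (σ * L)
  have h4 : exp (-(σ * L)) * exp (σ * L) = 1 := by rw [← exp_add]; simp
  have h5 := exp_pos (-(σ * L))
  have h6 : a * r ≤ a / σ * (σ * L) := by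
    rw [← mul_assoc, div_mul_cancel₀ _ hσ.ne']; gcongr
  have h7 : 0 ≤ a / σ := by positivity
  set y := exp (-(σ * L))
  set e := 1 - exp (-(a * r))
  have h8 : σ * L * y ≤ 1 - y := by nlinarith
  have h9 : y ≤ 1 := exp_le_one_iff.2 (by nlinarith)
  have h10 : e * y ≤ a / σ * (1 - y) := by
    calc e * y ≤ a / σ * (σ * L) * y := by gcongr; linarith
      _ ≤ _ := by rw [mul_assoc]; gcongr
  have h11 : e * (1 - y) ≤ 1 - y := mul_le_of_le_one_left (by linarith) (by linarith)
  linarith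

/-- the absorbed fraction -/
noncomputable def eta (σ L : ℝ) : ℝ := (1 - exp (-(σ * L))) / 4

lemma eta_nonneg {σ L : ℝ} (hσ : 0 ≤ σ) (hL : 0 ≤ L) : 0 ≤ eta σ L := by
  have : exp (-(σ * L)) ≤ 1 := exp_le_one_iff.2 (by nlinarith)
  unfold eta; linarith

lemma pointwise {m κ σ : ℝ} (hm : 0 < m) (hκ : 0 ≤ κ) (hκm : κ ≤ m) (hσ : 0 < σ) {N : ℕ}
    (hN : m ≤ N) : ∃ C ≥ 0, ∀ T x x' c r L B, c < 1 → 0 ≤ r → r ≤ L →
      min (beta N T x) (beta N T x') ≤ B →
      (beta N T x' - beta N T x) * (ker m κ (x - x' + r) c - ker m κ (x - x' - r) c) ≤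
        B * eta σ L * ker m κ (x - x' + r) c + C * L * (Ioi T).indicator 1 x := by
  obtain ⟨C₁, C₁0, h₁⟩ := one_sub_exp_le (show 0 ≤ 2 * κ by positivity) hσ
  obtain ⟨C₂, C₂0, h₂⟩ := beta_diff N (show 0 < (4 * C₁)⁻¹ by positivity)
  refine ⟨C₂ * (2 * κ) * 2 ^ m, by positivity, fun T x x' c r L B hc hr hL hB => ?_⟩
  have k0 := (ker_pos hc m κ (x - x' + r)).le
  have B0 : 0 ≤ B := (le_min (beta_nonneg _ _ _) (beta_nonneg _ _ _)).trans hB
  have L0 : 0 ≤ L := hr.trans hL
  have e0 := eta_nonneg hσ.le L0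
  have i0 : 0 ≤ (Ioi T).indicator (1 : ℝ → ℝ) x := indicator_nonneg (fun _ _ => zero_le_one) x
  have R0 : 0 ≤ B * eta σ L * ker m κ (x - x' + r) c +
      C₂ * (2 * κ) * 2 ^ m * L * (Ioi T).indicator 1 x := by positivity
  rcases le_or_gt x x' with hx | hx
  · exact le_trans (mul_nonpos_of_nonpos_of_nonneg (sub_nonpos.2 (beta_anti N T hx))
      (sub_nonneg.2 (ker_good hc hm.le hκ (sub_nonpos.2 hx) hr))) R0
  have b0 := beta_anti N T hx.le
  rcases le_or_gt (ker m κ (x - x' + r) c) (ker m κ (x - x' - r) c) with hk | hk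
  · exact le_trans (mul_nonpos_of_nonneg_of_nonpos (sub_nonneg.2 b0) (sub_nonpos.2 hk)) R0
  rcases le_or_gt x T with hT | hT
  · rw [beta_one N hT, beta_one N (hx.le.trans hT), sub_self, zero_mul]; exact R0
  rw [indicator_of_mem (show x ∈ Ioi T from hT), Pi.one_apply, mul_one]
  rw [min_eq_left b0] at hB
  have w1 := ker_wrong hc hm hκ hκm (sub_pos.2 hx) hr hk hN
  have w2 := ker_bad (κ := κ) hc hm.le (sub_pos.2 hx).le hr
  have w3 := h₁ r L hr hL
  have w4 := h₂ T x x' hx.le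
  have w5 : 1 - exp (-(2 * κ * r)) ≤ 2 * κ * L := by
    nlinarith [add_one_le_exp (-(2 * κ * r))]
  have w6 := pow_nonneg (le_min zero_le_one (sub_pos.2 hx).le) N
  have w7 := beta_nonneg N T x
  set P := ker m κ (x - x' + r) c - ker m κ (x - x' - r) c
  set k := ker m κ (x - x' + r) c
  set w := min 1 (x - x') ^ N
  have P0 : 0 ≤ P := (sub_pos.2 hk).le
  have P1 : P ≤ C₁ * (4 * eta σ L) * k := by
    refine w2.trans (mul_le_mul_of_nonneg_right (w3.trans (le_of_eq ?_)) k0)
    unfold eta; ring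
  have P2 : P ≤ 2 * κ * L * k := w2.trans (mul_le_mul_of_nonneg_right w5 k0)
  calc (beta N T x' - beta N T x) * P ≤ ((4 * C₁)⁻¹ * B + C₂ * w) * P := by
        gcongr
        have : (4 * C₁)⁻¹ * beta N T x ≤ (4 * C₁)⁻¹ * B := by gcongr
        linarith
    _ = (4 * C₁)⁻¹ * B * P + C₂ * w * P := by ring
    _ ≤ (4 * C₁)⁻¹ * B * (C₁ * (4 * eta σ L) * k) + C₂ * w * (2 * κ * L * k) := by gcongr
    _ = B * eta σ L * k + C₂ * (2 * κ) * (w * k) * L := by field_simp
    _ ≤ _ := by gcongr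

lemma integrated {k K : ℝ → ℝ} (hK : ∀ s, HasDerivAt K (k s) s) {z δ D A E C : ℝ} (h : δ ≤ D)
    (hp : ∀ r ∈ Icc δ D, A * (k (z + r) - k (z - r)) ≤ E * k (z + r) + C) :
    A * ((K (z + D) + K (z - D)) - (K (z + δ) + K (z - δ))) ≤
      E * (K (z + D) - K (z + δ)) + C * (D - δ) := by
  have hd : ∀ r, HasDerivAt (fun r => A * (K (z + r) + K (z - r)) - E * K (z + r) - C * r)
      (A * (k (z + r) - k (z - r)) - E * k (z + r) - C) r := by
    intro r
    have h1 : HasDerivAt (fun r => K (z + r)) (k (z + r)) r := (hK _).comp_const_add z r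
    have h2 : HasDerivAt (fun r => K (z - r)) (-k (z - r)) r := (hK _).comp_const_sub z r
    refine HasDerivAt.congr_deriv ((((h1.add h2).const_mul A).sub (h1.const_mul E)).sub
      ((hasDerivAt_id r).const_mul C)) ?_
    ring
  have := antitoneOn_of_deriv_nonpos (convex_Icc δ D)
    (fun r _ => (hd r).continuousAt.continuousWithinAt)
    (fun r _ => (hd r).differentiableAt.differentiableWithinAt)
    (fun r hr => by rw [(hd r).deriv]; linarith [hp r (interior_subset hr)])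
    (left_mem_Icc.2 h) (right_mem_Icc.2 h) h
  simp only at this
  linarith

/-- the force on the interval `(a, b)` exerted by a unit mass at height `t` -/
noncomputable def force (m κ σ : ℝ) (N : ℕ) (T a b t c : ℝ) : ℝ :=
  beta N T ((a + b) / 2) * (ker m κ (a - t) c - ker m κ (b - t) c -
    eta σ (b - a) * (ker m κ (a - t) c + ker m κ (b - t) c)) / (b - a)

theorem pair_ineq {m κ σ σ' : ℝ} (hm : 0 < m) (hκ : 0 ≤ κ) (hκm : κ ≤ m) (hσ : 0 < σ)
    (hσ' : 0 < σ') {N : ℕ} (hN : m ≤ N) : ∃ C ≥ 0, ∀ T a b a' b' c, c < 1 → a < b → a' < b' →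
      (∫ s in Ioo (0 : ℝ) 1, force m κ σ N T a b (a' + s * (b' - a')) c) +
      (∫ s in Ioo (0 : ℝ) 1, force m (-κ) σ' N T a' b' (a + s * (b - a)) c) ≤
        C * (Ioi T).indicator 1 ((a + b) / 2) := by
  obtain ⟨C, C0, hC⟩ := pointwise hm hκ hκm hσ hN
  obtain ⟨C', C0', hC'⟩ := pointwise hm hκ hκm hσ' hN
  refine ⟨C + C', by positivity, fun T a b a' b' c hc hab hab' => ?_⟩
  set k : ℝ → ℝ := fun s => ker m κ s c with hk
  have ck : Continuous k := continuous_ker hc m κ
  set K : ℝ → ℝ := fun s => ∫ x in (0 : ℝ)..s, k x with hKdef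
  have hK : ∀ s, HasDerivAt K (k s) s := fun s => (ck.integral_hasStrictDerivAt 0 s).hasDerivAt
  have Kmono : Monotone K := monotone_of_deriv_nonneg (fun s => (hK s).differentiableAt)
    fun s => by rw [(hK s).deriv]; exact (ker_pos hc _ _ _).le
  have hL := sub_pos.2 hab
  have hL' := sub_pos.2 hab'
  set β := beta N T ((a + b) / 2) with hβ
  set β' := beta N T ((a' + b') / 2) with hβ'
  have e1 : ∫ s in Ioo (0 : ℝ) 1, force m κ σ N T a b (a' + s * (b' - a')) c =
      β * ((K (a - a') - K (a - b')) - (K (b - a') - K (b - b')) - eta σ (b - a) *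
        ((K (a - a') - K (a - b')) + (K (b - a') - K (b - b')))) / ((b - a) * (b' - a')) := by
    have hd : ∀ (e s : ℝ), HasDerivAt (fun s => -K (e - (a' + s * (b' - a'))) / (b' - a'))
        (k (e - (a' + s * (b' - a')))) s := fun e s => by
      refine HasDerivAt.congr_deriv ((((hK _).comp s ((((hasDerivAt_id s).mul_const
        (b' - a')).const_add a').const_sub e)).neg).div_const (b' - a')) ?_
      simp only [id]; field_simp
    simp only [force]
    rw [← integral_Ioc_eq_integral_Ioo, ← intervalIntegral.integral_of_le zero_le_one,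
      intervalIntegral.integral_eq_sub_of_hasDerivAt (fun s _ => (((((hd a s).sub (hd b s)).sub
        (((hd a s).add (hd b s)).const_mul (eta σ (b - a)))).const_mul β).div_const (b - a)))
        (Continuous.intervalIntegrable (by fun_prop) _ _)]
    simp only [Pi.sub_apply, Pi.add_apply, one_mul, zero_mul, add_zero, add_sub_cancel]
    field_simp
    ring
  have e2 : ∫ s in Ioo (0 : ℝ) 1, force m (-κ) σ' N T a' b' (a + s * (b - a)) c =
      β' * ((K (b - a') - K (a - a')) - (K (b - b') - K (a - b')) - eta σ' (b' - a') *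
        ((K (b - a') - K (a - a')) + (K (b - b') - K (a - b')))) / ((b - a) * (b' - a')) := by
    have hd : ∀ (e s : ℝ), HasDerivAt (fun s => K (a + s * (b - a) - e) / (b - a))
        (k (a + s * (b - a) - e)) s := fun e s => by
      refine HasDerivAt.congr_deriv (((hK _).comp s ((((hasDerivAt_id s).mul_const
        (b - a)).const_add a).sub_const e)).div_const (b - a)) ?_
      simp only [id]; field_simp
    simp only [force, ker_neg, neg_sub]
    rw [← integral_Ioc_eq_integral_Ioo, ← intervalIntegral.integral_of_le zero_le_one,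
      intervalIntegral.integral_eq_sub_of_hasDerivAt (fun s _ => (((((hd a' s).sub (hd b' s)).sub
        (((hd a' s).add (hd b' s)).const_mul (eta σ' (b' - a')))).const_mul β').div_const
        (b' - a'))) (Continuous.intervalIntegrable (by fun_prop) _ _)]
    simp only [Pi.sub_apply, Pi.add_apply, one_mul, zero_mul, add_zero, add_sub_cancel]
    field_simp
    ring
  rw [e1, e2, ← add_div, div_le_iff₀ (mul_pos hL hL')]
  have i0 : 0 ≤ (Ioi T).indicator (1 : ℝ → ℝ) ((a + b) / 2) :=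
    indicator_nonneg (fun _ _ => zero_le_one) _
  set ι := (Ioi T).indicator (1 : ℝ → ℝ) ((a + b) / 2)
  have p1 := mul_nonneg (beta_nonneg N T ((a + b) / 2)) (eta_nonneg hσ.le hL.le)
  have p2 := mul_nonneg (beta_nonneg N T ((a' + b') / 2)) (eta_nonneg hσ'.le hL'.le)
  have q1 := mul_nonneg p1 (sub_nonneg.2 (Kmono (show a - b' ≤ a - a' by linarith)))
  have q2 := mul_nonneg p1 (sub_nonneg.2 (Kmono (show b - b' ≤ b - a' by linarith)))
  have q3 := mul_nonneg p2 (sub_nonneg.2 (Kmono (show a - a' ≤ b - a' by linarith)))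
  have q4 := mul_nonneg p2 (sub_nonneg.2 (Kmono (show a - b' ≤ b - b' by linarith)))
  have q5 : 0 ≤ C * ι * ((b - a) * (b' - a')) := by positivity
  have q6 : 0 ≤ C' * ι * ((b - a) * (b' - a')) := by positivity
  rw [← hβ] at q1 q2
  rw [← hβ'] at q3 q4
  rcases le_total (b' - a') (b - a) with h | h
  · have := integrated hK (z := (a + b) / 2 - (a' + b') / 2) (δ := ((b - a) - (b' - a')) / 2)
      (D := ((b - a) + (b' - a')) / 2) (by linarith) fun r hr =>
      hC T _ _ c r (b - a) β hc (by linarith [hr.1]) (by linarith [hr.2]) (min_le_left _ _)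
    rw [show (a + b) / 2 - (a' + b') / 2 + ((b - a) + (b' - a')) / 2 = b - a' by ring,
      show (a + b) / 2 - (a' + b') / 2 - ((b - a) + (b' - a')) / 2 = a - b' by ring,
      show (a + b) / 2 - (a' + b') / 2 + ((b - a) - (b' - a')) / 2 = b - b' by ring,
      show (a + b) / 2 - (a' + b') / 2 - ((b - a) - (b' - a')) / 2 = a - a' by ring] at this
    linarith
  · have := integrated hK (z := (a + b) / 2 - (a' + b') / 2) (δ := ((b' - a') - (b - a)) / 2)
      (D := ((b - a) + (b' - a')) / 2) (by linarith) fun r hr =>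
      hC' T _ _ c r (b' - a') β' hc (by linarith [hr.1]) (by linarith [hr.2]) (min_le_right _ _)
    rw [show (a + b) / 2 - (a' + b') / 2 + ((b - a) + (b' - a')) / 2 = b - a' by ring,
      show (a + b) / 2 - (a' + b') / 2 - ((b - a) + (b' - a')) / 2 = a - b' by ring,
      show (a + b) / 2 - (a' + b') / 2 + ((b' - a') - (b - a)) / 2 = a - a' by ring,
      show (a + b) / 2 - (a' + b') / 2 - ((b' - a') - (b - a)) / 2 = b - b' by ring] at this
    linarith

end Vale.Agent.P100
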