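import Vale.Agent.P100.Green
import Mathlib.Analysis.Calculus.DerivativeTest
import Mathlib.Analysis.SpecialFunctions.Log.Deriv

/-! The planar case, by the maximum principle. -/

open Set Real Filter Topology Metric Module Laplacian
open scoped InnerProductSpace

namespace Vale.Agent.P100

variable {E : Type} [NormedAddCommGroup E] [InnerProductSpace ℝ E]

lemma second_nonneg {g g₁ : E → ℝ} {y v : E} {a : ℝ}
    (h1 : ∀ᶠ z in 𝓝 y, HasLineDerivAt ℝ g (g₁ z) z v) (h2 : HasLineDerivAt ℝ g₁ a y v)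
    (h : IsLocalMin g y) : 0 ≤ a := by
  have t : Tendsto (fun t : ℝ => y + t • v) (𝓝 0) (𝓝 y) :=
    Continuous.tendsto' (by fun_prop) _ _ (by simp)
  have d1 : ∀ᶠ t in 𝓝 (0 : ℝ), HasDerivAt (fun t : ℝ => g (y + t • v)) (g₁ (y + t • v)) t :=
    (t.eventually h1).mono fun t ht => by
      have := HasDerivAt.comp_sub_const t t (f := fun s : ℝ => g (y + t • v + s • v))
        (by rw [sub_self]; exact ht)
      simpa [sub_smul] using this
  have d2 : deriv (deriv fun t : ℝ => g (y + t • v)) 0 = a :=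
    (EventuallyEq.deriv_eq (d1.mono fun t ht => ht.deriv)).trans (HasDerivAt.deriv h2)
  have m1 : IsLocalMin (fun t : ℝ => g (y + t • v)) 0 := by
    have := t.eventually h
    simpa [IsLocalMin, IsMinFilter] using this
  by_contra ha
  have m2 := isLocalMax_of_deriv_deriv_neg (d2 ▸ not_le.1 ha) m1.deriv_eq_zero
    d1.self_of_nhds.continuousAt
  have e : (fun t : ℝ => g (y + t • v)) =ᶠ[𝓝 0] fun _ => g (y + (0 : ℝ) • v) :=
    (m1.and m2).mono fun t ht => le_antisymm ht.2 ht.1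
  rw [e.deriv.deriv_eq] at d2
  simp at d2
  exact ha d2.le

variable [FiniteDimensional ℝ E]

lemma not_min (hn : finrank ℝ E = 2) {u : E → ℝ} (hu : ContDiffOn ℝ 2 u {0}ᶜ) {y : E} (hy : y ≠ 0)
    (hl : Δ u y < 0) (ε : ℝ) : ¬ IsLocalMin (fun z => u z + ε * log (‖z - 0‖ ^ 2)) y := by
  intro h
  set b := stdOrthonormalBasis ℝ E
  have w0 : ∀ z : E, z ≠ 0 → ‖z - 0‖ ^ 2 ≠ 0 := fun z hz => by simpa using hz
  have := Finset.sum_nonneg (s := Finset.univ) fun i _ => second_nonneg (v := b i)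
    (g := fun z => u z + ε * log (‖z - 0‖ ^ 2))
    (g₁ := fun z => fderiv ℝ u z (b i) + ε * ((‖z - 0‖ ^ 2)⁻¹ * (2 * ⟪z - 0, b i⟫_ℝ)))
    ((eventually_ne_nhds hy).mono fun z hz => HasDerivAt.add (line_u hu hz (b i)).1
      (HasDerivAt.const_mul ε (line_rad (hasDerivAt_log (w0 z hz)))))
    (HasDerivAt.add (line_u hu hy (b i)).2 (HasDerivAt.const_mul ε
      (line_mul (line_rad (hasDerivAt_inv (w0 y hy))) (line_inner 0 y (b i))))) h
  rw [Finset.sum_add_distrib, ← lap_eq, ← Finset.mul_sum, Finset.sum_add_distrib,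
    Finset.sum_congr rfl (g := fun i => -((‖y - 0‖ ^ 2) ^ 2)⁻¹ * 4 * ⟪y - 0, b i⟫_ℝ ^ 2)
      fun i _ => by ring, ← Finset.mul_sum, b.sum_sq_inner_left] at this
  simp only [b.norm_eq_one, Finset.sum_const, Finset.card_univ, Fintype.card_fin, hn,
    nsmul_eq_mul] at this
  have e := w0 y hy
  rw [show -((‖y - 0‖ ^ 2) ^ 2)⁻¹ * 4 * ‖y - 0‖ ^ 2 + (2 : ℕ) * ((‖y - 0‖ ^ 2)⁻¹ * (2 * 1 ^ 2)) = 0 by
    field_simp; norm_num] at this
  linarith

theorem plane (hn : finrank ℝ E = 2) {u : E → ℝ} (hu : ContDiffOn ℝ 2 u {0}ᶜ) (hc : Continuous u)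
    (h0 : ∀ y, 0 < u y) (hl : ∀ y, y ≠ 0 → Δ u y < 0) : False := by
  have := FiniteDimensional.proper_real E
  have : Nontrivial E := Module.nontrivial_of_finrank_pos (R := ℝ) (by omega)
  obtain ⟨y₀, hy₀, hM⟩ := (isCompact_sphere (0 : E) 1).exists_isMinOn
    (NormedSpace.sphere_nonempty.2 zero_le_one) hc.continuousOn
  have ann : ∀ (ε r R : ℝ) (y : E), 0 < r → r ≤ ‖y‖ → ‖y‖ ≤ R → ∃ z : E, (‖z‖ = r ∨ ‖z‖ = R) ∧
      u z + ε * log (‖z‖ ^ 2) ≤ u y + ε * log (‖y‖ ^ 2) := by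
    intro ε r R y r0 h1 h2
    obtain ⟨z, hz, hz'⟩ := ((isCompact_closedBall (0 : E) R).diff
      (isOpen_ball (x := 0) (ε := r))).exists_isMinOn ⟨y, by simp [h1, h2]⟩
      (f := fun z => u z + ε * log (‖z - 0‖ ^ 2)) (hc.continuousOn.add (continuousOn_const.mul
        (ContinuousOn.log (by fun_prop) fun z hz => by
          have : r ≤ ‖z‖ := by simpa using hz.2
          have := r0.trans_le this
          simpa using norm_pos_iff.1 this)))
    have z1 : r ≤ ‖z‖ := by simpa using hz.2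
    have z2 : ‖z‖ ≤ R := by simpa using hz.1
    refine ⟨z, by_contra fun h => ?_, by simpa using hz' (show y ∈ _ by simp [h1, h2])⟩
    push Not at h
    have z0 := norm_pos_iff.1 (r0.trans_le z1)
    refine not_min hn hu z0 (hl z z0) ε (hz'.isLocalMin ?_)
    filter_upwards [continuous_norm.continuousAt.eventually
      (Ioo_mem_nhds (lt_of_le_of_ne z1 h.1.symm) (lt_of_le_of_ne z2 h.2))] with y hy
    exact ⟨by simpa using hy.2.le, by simpa using hy.1.le⟩
  have M0 := h0 y₀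
  have key : ∀ y : E, y ≠ 0 → ∀ ε > 0, u y₀ ≤ u y + ε * |log (‖y‖ ^ 2)| := by
    intro y hy ε ε0
    have y0 := norm_pos_iff.2 hy
    have e1 : ε * (u y₀ / ε) = u y₀ := by field_simp
    rcases le_total 1 ‖y‖ with h | h
    · obtain ⟨z, h1, h2⟩ := ann ε 1 (max ‖y‖ (exp (u y₀ / ε))) y one_pos h (le_max_left _ _)
      refine le_trans ?_ (h2.trans (by gcongr; exact le_abs_self _))
      rcases h1 with h1 | h1
      · simpa [h1] using hM (show z ∈ sphere 0 1 by simpa using h1)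
      · have := log_le_log (exp_pos _) ((le_max_right _ _).trans h1.ge)
        rw [log_exp] at this
        rw [log_pow]
        push_cast
        nlinarith [h0 z]
    · obtain ⟨z, h1, h2⟩ := ann (-ε) (min ‖y‖ (exp (-(u y₀ / ε)))) 1 y (lt_min y0 (exp_pos _))
        (min_le_left _ _) h
      refine le_trans ?_ (h2.trans (by rw [neg_mul, ← mul_neg]; gcongr; exact neg_le_abs _))
      rcases h1 with h1 | h1
      · have := log_le_log (h1 ▸ lt_min y0 (exp_pos _)) (h1.le.trans (min_le_right _ _))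
        rw [log_exp] at this
        rw [log_pow]
        push_cast
        nlinarith [h0 z]
      · simpa [h1] using hM (show z ∈ sphere 0 1 by simpa using h1)
  have y0 : y₀ ≠ 0 := ne_zero_of_mem_unit_sphere ⟨y₀, hy₀⟩
  refine not_min hn hu y0 (hl _ y0) 0 ((eventually_ne_nhds y0).mono fun y hy => ?_)
  simp only [zero_mul, add_zero]
  have t : Tendsto (fun ε : ℝ => u y + ε * |log (‖y‖ ^ 2)|) (𝓝[>] 0) (𝓝 (u y)) :=
    (Continuous.tendsto' (by fun_prop) _ _ (by simp)).mono_left nhdsWithin_le_nhds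
  exact ge_of_tendsto t (eventually_mem_nhdsWithin.mono (key y hy))

end Vale.Agent.P100
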