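import Vale.Agent.P100.Repr
import Vale.Agent.P100.Plane

/-! The Liouville theorem for the weighted Lane-Emden system below the critical hyperbola. -/

open MeasureTheory Set Real Filter Topology Metric Module Laplacian
open scoped ENNReal InnerProductSpace

namespace Vale.Agent.P100

variable {E : Type} [NormedAddCommGroup E] [InnerProductSpace ℝ E] [FiniteDimensional ℝ E]
  [MeasurableSpace E] [BorelSpace E]

lemma half {m K : ℝ} (hm : 0 < m) (hn : (finrank ℝ E : ℝ) = 2 * m + 2)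
    (hK : ∀ u f : E → ℝ, Sup u f → (∀ x, Newt m (fun y => K * f y) x ≤ ENNReal.ofReal (u x)) ∧
      ((∀ ε > 0, ∃ x, u x < ε) → ∀ x, Newt m (fun y => K * f y) x = ENNReal.ofReal (u x)))
    {u v : E → ℝ} {A p : ℝ} (hu : ContDiffOn ℝ 2 u {0}ᶜ) (cu : Continuous u) (cv : Continuous v)
    (u0 : ∀ x, 0 < u x) (v0 : ∀ x, 0 < v x) (h : ∀ x, x ≠ 0 → -Δ u x = ‖x‖ ^ A * v x ^ p) :
    Half (volume : Measure E).toSphere (fun θ θ' => ⟪θ.1, θ'.1⟫_ℝ) m K A p
      (fun t θ => u (exp t • θ.1)) (fun t θ => v (exp t • θ.1)) := by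
  have := FiniteDimensional.proper_real E
  have mf : Measurable fun x => ‖x‖ ^ A * v x ^ p := by have := cv.measurable; fun_prop
  obtain ⟨h1, h2⟩ := hK u _ ⟨hu, cu, fun y => (u0 y).le, mf, fun y => by
    have := v0 y; positivity, h⟩
  have nm : ∀ (t : ℝ) (θ : sphere (0 : E) 1), ‖exp t • θ.1‖ = exp t := fun t θ => by
    simp [norm_smul]
  have e : (fun (t : ℝ) (θ : sphere (0 : E) 1) => exp (2 * t) * (K * (‖exp t • θ.1‖ ^ A *
      v (exp t • θ.1) ^ p))) = rhs K A p fun t θ => v (exp t • θ.1) := by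
    ext t θ
    rw [rhs, nm, ← exp_mul, add_mul, exp_add, mul_comm t]
    ring
  have mem : ∀ {t T : ℝ}, t ≤ T → ∀ θ : sphere (0 : E) 1, exp t • θ.1 ∈ closedBall (0 : E) (exp T) :=
    fun ht θ => by rw [mem_closedBall_zero_iff, nm]; exact exp_le_exp.2 ht
  refine ⟨cu.comp (f := fun z : ℝ × sphere (0 : E) 1 => exp z.1 • z.2.1) (by fun_prop),
    fun t θ => u0 _, fun T => ?_, ?_, fun t θ => ?_, fun h0 t θ => ?_⟩
  · obtain ⟨C, hC⟩ := (isCompact_closedBall (0 : E) (exp T)).exists_bound_of_continuousOn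
      cu.continuousOn
    exact ⟨C, fun t ht θ => (le_abs_self _).trans (hC _ (mem ht θ))⟩
  · obtain ⟨z, -, hz⟩ := (isCompact_closedBall (0 : E) (exp 0)).exists_isMinOn
      ⟨0, mem_closedBall_self (exp_pos _).le⟩ cu.continuousOn
    exact ⟨u z, u0 z, fun t ht θ => hz (mem ht θ)⟩
  · rw [← e, ← Newt_eq hm hn (mf.const_mul K)]
    exact h1 _
  · rw [← e, ← Newt_eq hm hn (mf.const_mul K)]
    exact h2 (fun ε ε0 => (h0 ε ε0).elim fun _ h => h.elim fun _ h => ⟨_, h⟩) _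

theorem main (hn : 2 ≤ finrank ℝ E) {p q A B : ℝ} (hp : 0 < p) (hq : 0 < q)
    (hsub : (finrank ℝ E + A) / (p + 1) + (finrank ℝ E + B) / (q + 1) > finrank ℝ E - 2)
    {u v : E → ℝ} (hu : ContDiffOn ℝ 2 u {0}ᶜ) (hv : ContDiffOn ℝ 2 v {0}ᶜ) (cu : Continuous u)
    (cv : Continuous v) (u0 : ∀ x, 0 < u x) (v0 : ∀ x, 0 < v x)
    (h1 : ∀ x, x ≠ 0 → -Δ u x = ‖x‖ ^ A * v x ^ p)
    (h2 : ∀ x, x ≠ 0 → -Δ v x = ‖x‖ ^ B * u x ^ q) : False := by
  rcases hn.eq_or_lt with h | h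
  · refine plane h.symm hu cu u0 fun y hy => neg_pos.1 ?_
    have := v0 y
    rw [h1 y hy]
    positivity
  have : Nontrivial E := Module.nontrivial_of_finrank_pos (R := ℝ) (by omega)
  have h3 : (2 : ℝ) < finrank ℝ E := by exact_mod_cast h
  have hm : 0 < ((finrank ℝ E : ℝ) - 2) / 2 := by linarith
  have hn : (finrank ℝ E : ℝ) = 2 * (((finrank ℝ E : ℝ) - 2) / 2) + 2 := by ring
  obtain ⟨K, K0, hK⟩ := repr hm hn
  exact cyl (sect hm hn) hm (fun θ θ' => neg_le_of_abs_le (abs_inner_le θ θ'))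
    (Measure.toSphere_ne_zero _) K0 hp hq (half hm hn hK hu cu cv u0 v0 h1)
    (half hm hn hK hv cv cu v0 u0 h2) (by rw [← hn]; linarith)

end Vale.Agent.P100
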