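import Vale.Agent.P100.Core
import Mathlib.Analysis.SpecialFunctions.ImproperIntegrals

/-! Decay of the tails and finiteness of the masses on the cylinder. -/

open MeasureTheory Set Real Filter Topology
open scoped ENNReal

namespace Vale.Agent.P100

/-- exponential decay -/
def Decay (f : ℝ → ℝ) (α : ℝ) : Prop := ∃ C > 0, ∃ T₀, ∀ T ≥ T₀, f T ≤ C * exp (-(α * T))

lemma Decay.mono {f : ℝ → ℝ} {α β : ℝ} (h : Decay f α) (hβ : β ≤ α) : Decay f β := by
  obtain ⟨C, C0, T₀, h⟩ := h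
  refine ⟨C, C0, max T₀ 0, fun T hT => (h T (le_of_max_le_left hT)).trans ?_⟩
  have := le_of_max_le_right hT
  gcongr

lemma Decay.step {f g : ℝ → ℝ} {α a p c : ℝ} (h : Decay f α) (hp : 0 < p) (hc : 0 < c)
    (g0 : ∀ T, 0 ≤ g T) (hr : ∀ T, c * exp (a * T) * g (T + 1) ^ p ≤ f T) :
    Decay g ((a + α) / p) := by
  obtain ⟨C, C0, T₀, h⟩ := h
  refine ⟨(C / c) ^ p⁻¹ * exp ((a + α) / p), by positivity, T₀ + 1, fun T hT => ?_⟩
  have h1 := (hr (T - 1)).trans (h _ (by linarith))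
  rw [sub_add_cancel] at h1
  have h2 : g T ^ p ≤ C / c * exp (-((a + α) * (T - 1))) := by
    rw [show -((a + α) * (T - 1)) = -(α * (T - 1)) - a * (T - 1) by ring, exp_sub,
      div_mul_div_comm, le_div_iff₀ (by positivity)]
    linarith
  have h3 := (le_rpow_inv_iff_of_pos (g0 T) (by positivity) hp).2 h2
  rw [mul_rpow (by positivity) (by positivity), ← exp_mul] at h3
  rw [mul_assoc, ← exp_add]
  refine h3.trans (le_of_eq ?_)
  congr 2
  field_simp
  ring

lemma decay {f g : ℝ → ℝ} {a b p q c c' l : ℝ} (hp : 0 < p) (hq : 0 < q) (hc : 0 < c)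
    (hc' : 0 < c') (f0 : ∀ T, 0 ≤ f T) (g0 : ∀ T, 0 ≤ g T) (h0 : Decay f 0)
    (hr : ∀ T, c * exp (a * T) * g (T + 1) ^ p ≤ f T)
    (hr' : ∀ T, c' * exp (b * T) * f (T + 1) ^ q ≤ g T) (hl : 0 ≤ l) (h1 : 0 < a + p * b)
    (h2 : 0 < a + p * b + l - p * q * l) : ∃ α > l, Decay f α := by
  set δ := min (a + p * b) (a + p * b + l - p * q * l) / (p * q) with hδ
  have δ0 : 0 < δ := div_pos (lt_min h1 h2) (by positivity)
  have st : ∀ α, 0 ≤ α → α ≤ l → Decay f α → Decay f (α + δ) := by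
    intro α α0 αl h
    refine ((h.step hp hc g0 hr).step hq hc' f0 hr').mono ?_
    have : min (a + p * b) (a + p * b + l - p * q * l) ≤ a + p * b + α - p * q * α := by
      rcases le_total (p * q) 1 with e | e
      · exact (min_le_left _ _).trans (by nlinarith)
      · exact (min_le_right _ _).trans (by nlinarith)
    rw [hδ, show (b + (a + α) / p) / q = α + (a + p * b + α - p * q * α) / (p * q) by
      field_simp; ring]
    gcongr
  have ind : ∀ k : ℕ, Decay f (min (k * δ) l) := by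
    intro k
    induction k with
    | zero => simpa [min_eq_left hl] using h0
    | succ k ih =>
      refine (st _ (le_min (by positivity) hl) (min_le_right _ _) ih).mono ?_
      push_cast
      rcases le_total (k * δ) l with e | e
      · rw [min_eq_left e]; exact (min_le_left _ _).trans (by linarith)
      · rw [min_eq_right e]; exact (min_le_right _ _).trans (by linarith)
  obtain ⟨k, hk⟩ := exists_nat_ge (l / δ)
  have := ind k
  rw [min_eq_right ((div_le_iff₀ δ0).1 hk)] at this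
  exact ⟨l + δ, by linarith, st l hl le_rfl this⟩

variable {Θ : Type} [MeasurableSpace Θ]

/-- the Newton potential on the cylinder -/
noncomputable def newt (ν : Measure Θ) (c : Θ → Θ → ℝ) (m : ℝ) (F : ℝ → Θ → ℝ) (t : ℝ) (θ : Θ) :
    ℝ≥0∞ :=
  ∫⁻ p, ENNReal.ofReal (ker m (-m) (t - p.1) (c θ p.2)) * ENNReal.ofReal (F p.1 p.2)
    ∂(volume.prod ν)

/-- the mass above a given height -/
noncomputable def tail (ν : Measure Θ) (F : ℝ → Θ → ℝ) (T : ℝ) : ℝ≥0∞ :=
  ∫⁻ p in Ici T ×ˢ univ, ENNReal.ofReal (F p.1 p.2) ∂(volume.prod ν)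

variable {ν : Measure Θ} [IsFiniteMeasure ν] {c : Θ → Θ → ℝ} {m : ℝ} {F : ℝ → Θ → ℝ}

omit [IsFiniteMeasure ν] in
lemma tail_anti : Antitone (tail ν F) := fun _ _ h =>
  lintegral_mono_set (prod_mono (Ici_subset_Ici.2 h) le_rfl)

lemma tail_ge {δ a b : ℝ} (h : ∀ t ∈ Ico a b, ∀ θ, δ ≤ F t θ) :
    ENNReal.ofReal δ * (ENNReal.ofReal (b - a) * ν univ) ≤ tail ν F a := by
  refine le_trans ?_ (lintegral_mono_set (prod_mono (Ico_subset_Ici_self (a := b)) le_rfl))
  rw [← Real.volume_Ico, ← Measure.prod_prod, ← setLIntegral_const]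
  exact setLIntegral_mono' (measurableSet_Ico.prod .univ) fun p hp =>
    ENNReal.ofReal_le_ofReal (h _ hp.1 _)

omit [IsFiniteMeasure ν] in
lemma tail_le (hc : Sect ν c m) (hm : 0 ≤ m) (hc' : ∀ θ θ', -1 ≤ c θ θ') (t : ℝ) (θ : Θ) :
    ENNReal.ofReal (4 ^ (-m)) * tail ν F t ≤ newt ν c m F t θ := by
  rw [tail, ← lintegral_const_mul' _ _ ENNReal.ofReal_ne_top]
  refine le_trans (lintegral_mono_ae ?_) (setLIntegral_le_lintegral _ _)
  filter_upwards [ae_restrict_mem (measurableSet_Ici.prod .univ), ae_restrict_of_ae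
    (Measure.quasiMeasurePreserving_snd.ae (hc.lt θ))] with p h1 h2
  gcongr
  have h3 : t - p.1 ≤ 0 := sub_nonpos.2 h1.1
  have h4 : Dk (t - p.1) (c θ p.2) ≤ 4 * exp (-(t - p.1)) := by
    have := hc' θ p.2
    have := exp_le_exp.2 (show t - p.1 ≤ -(t - p.1) by linarith)
    have := one_le_exp (show 0 ≤ -(t - p.1) by linarith)
    rw [Dk, cosh_eq]; linarith
  have h5 := rpow_le_rpow_of_nonpos (Dk_pos h2 _) h4 (neg_nonpos.2 hm)
  rw [mul_rpow (by norm_num) (exp_pos _).le, ← exp_mul] at h5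
  refine le_trans (le_of_eq ?_) (mul_le_mul_of_nonneg_left h5 (exp_pos _).le)
  rw [mul_left_comm, ← exp_add, show -m * (t - p.1) + -(t - p.1) * -m = 0 by ring, exp_zero, mul_one]

lemma mass_fin (mF : Measurable (Function.uncurry F)) {l α C₀ : ℝ} (hl : 0 < l) (hα : l < α)
    (h0 : ∀ T, tail ν F T ≤ ENNReal.ofReal C₀) (h : Decay (fun T => (tail ν F T).toReal) α) :
    ∫⁻ p, ENNReal.ofReal (exp (l * p.1) * F p.1 p.2) ∂(volume.prod ν) ≠ ∞ := by
  obtain ⟨C, C0, T₀, h⟩ := h
  set G : (ℝ × Θ) × ℝ → ℝ≥0∞ := {z | z.2 ≤ z.1.1}.indicator fun z =>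
    ENNReal.ofReal (exp (l * (z.2 + 1))) * ENNReal.ofReal (F z.1.1 z.1.2) with hG
  have mG : Measurable G := Measurable.indicator (by fun_prop)
    (measurableSet_le (by fun_prop) (by fun_prop))
  refine ne_of_lt ?_
  calc _ ≤ ∫⁻ p, ∫⁻ s, G (p, s) ∂volume ∂(volume.prod ν) := by
        refine lintegral_mono fun p => le_trans ?_ (setLIntegral_le_lintegral (Ioc (p.1 - 1) p.1) _)
        refine le_trans (le_of_eq ?_) (setLIntegral_mono' measurableSet_Ioc
          (f := fun _ => ENNReal.ofReal (exp (l * p.1) * F p.1 p.2)) fun s hs => ?_)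
        · simp
        rw [hG, indicator_of_mem (show (p, s) ∈ {z : (ℝ × Θ) × ℝ | z.2 ≤ z.1.1} from hs.2),
          ENNReal.ofReal_mul (exp_pos _).le]
        gcongr
        linarith [hs.1]
    _ = ∫⁻ s, ENNReal.ofReal (exp (l * (s + 1))) * tail ν F s := by
        rw [lintegral_lintegral_swap (Measurable.aemeasurable (by fun_prop))]
        refine lintegral_congr fun s => ?_
        rw [tail, ← lintegral_const_mul' _ _ ENNReal.ofReal_ne_top,
          ← lintegral_indicator (measurableSet_Ici.prod .univ)]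
        refine lintegral_congr fun p => ?_
        simp only [hG, indicator_apply, mem_ofPred_eq, mem_prod, mem_Ici, mem_univ, and_true]
    _ ≤ (∫⁻ s in Iic T₀, ENNReal.ofReal (exp l * C₀ * exp (l * s))) +
        ∫⁻ s in Ioi T₀, ENNReal.ofReal (exp l * C * exp ((l - α) * s)) := by
        rw [← lintegral_add_compl _ (measurableSet_Iic (a := T₀)), compl_Iic]
        refine add_le_add (lintegral_mono fun s => ?_)
          (setLIntegral_mono' measurableSet_Ioi fun s hs => ?_)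
        · rw [mul_right_comm, ← exp_add, ENNReal.ofReal_mul (exp_pos _).le,
            show l + l * s = l * (s + 1) by ring]
          gcongr
          exact h0 s
        · rw [← ENNReal.ofReal_toReal ((h0 s).trans_lt ENNReal.ofReal_lt_top).ne,
            ← ENNReal.ofReal_mul (exp_pos _).le]
          refine ENNReal.ofReal_le_ofReal ((mul_le_mul_of_nonneg_left (h s (le_of_lt hs))
            (exp_pos _).le).trans (le_of_eq ?_))
          rw [mul_left_comm, ← exp_add, mul_right_comm, ← exp_add, mul_comm]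
          congr 2
          ring
    _ < ∞ := ENNReal.add_lt_top.2
        ⟨((integrableOn_exp_mul_Iic hl _).const_mul _).lintegral_lt_top,
          ((integrableOn_exp_mul_Ioi (by linarith) _).const_mul _).lintegral_lt_top⟩

/-- the right hand side of one equation -/
noncomputable def rhs (K A p : ℝ) (v : ℝ → Θ → ℝ) (t : ℝ) (θ : Θ) : ℝ :=
  K * exp ((2 + A) * t) * v t θ ^ p

variable [TopologicalSpace Θ]

/-- one half of the integral system on the cylinder -/
structure Half (ν : Measure Θ) (c : Θ → Θ → ℝ) (m K A p : ℝ) (u v : ℝ → Θ → ℝ) : Prop where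
  cont : Continuous (Function.uncurry u)
  pos : ∀ t θ, 0 < u t θ
  bdd : ∀ T, ∃ C, ∀ t ≤ T, ∀ θ, u t θ ≤ C
  low : ∃ ε > 0, ∀ t ≤ 0, ∀ θ, ε ≤ u t θ
  le : ∀ t θ, newt ν c m (rhs K A p v) t θ ≤ ENNReal.ofReal (u t θ)
  eq : (∀ ε > 0, ∃ t θ, u t θ < ε) →
    ∀ t θ, newt ν c m (rhs K A p v) t θ = ENNReal.ofReal (u t θ)

variable {K A B p q : ℝ} {u v : ℝ → Θ → ℝ}

omit [IsFiniteMeasure ν] in
lemma Half.tail_bdd (hc : Sect ν c m) (hm : 0 ≤ m) (hc' : ∀ θ θ', -1 ≤ c θ θ') (θ : Θ)
    (h : Half ν c m K A p u v) : ∃ C > 0, ∀ T, tail ν (rhs K A p v) T ≤ ENNReal.ofReal C := by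
  obtain ⟨C, hC⟩ := h.bdd 0
  have C0 := (h.pos 0 θ).trans_le (hC 0 le_rfl θ)
  refine ⟨4 ^ m * C, by positivity, fun T => (tail_anti (min_le_left T 0)).trans ?_⟩
  have := ((tail_le hc hm hc' (min T 0) θ).trans (h.le _ _)).trans
    (ENNReal.ofReal_le_ofReal (hC _ (min_le_right _ _) _))
  rw [ENNReal.ofReal_mul (by positivity)]
  refine le_trans (le_of_eq ?_) (mul_le_mul_right this _)
  rw [← mul_assoc, ← ENNReal.ofReal_mul (by positivity), ← rpow_add (by norm_num)]
  simp

lemma Half.unbdd (hc : Sect ν c m) (hm : 0 ≤ m) (hc' : ∀ θ θ', -1 ≤ c θ θ') (hν : ν ≠ 0)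
    (h : Half ν c m K A p u v) {δ : ℝ} (hδ : 0 < δ)
    (hk : ∀ k : ℝ, ∃ a, ∀ t ∈ Ico a (a + k), ∀ θ, δ ≤ rhs K A p v t θ) : False := by
  have := nonempty_of_measure_ne_zero (Measure.measure_univ_ne_zero.2 hν)
  obtain ⟨C, C0, hC⟩ := h.tail_bdd hc hm hc' this.some
  have n0 : 0 < ν.real univ := ENNReal.toReal_pos (Measure.measure_univ_ne_zero.2 hν)
    (measure_ne_top _ _)
  obtain ⟨a, ha⟩ := hk ((C + 1) / (δ * ν.real univ))
  have := (tail_ge (ν := ν) ha).trans (hC a)
  rw [add_sub_cancel_left, ← ofReal_measureReal, ← ENNReal.ofReal_mul (by positivity),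
    ← ENNReal.ofReal_mul hδ.le, ENNReal.ofReal_le_ofReal_iff C0.le] at this
  have e : δ * ((C + 1) / (δ * ν.real univ) * ν.real univ) = C + 1 := by field_simp
  linarith

lemma Half.exp_pos (hc : Sect ν c m) (hm : 0 ≤ m) (hc' : ∀ θ θ', -1 ≤ c θ θ') (hν : ν ≠ 0)
    (hK : 0 < K) (hp : 0 < p) (h : Half ν c m K A p u v) (h' : Half ν c m K B q v u) :
    0 < 2 + A := by
  obtain ⟨ε, ε0, hε⟩ := h'.low
  by_contra hA
  refine h.unbdd hc hm hc' hν (δ := K * 1 * ε ^ p) (by positivity) fun k =>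
    ⟨-k, fun t ht θ => ?_⟩
  have : t ≤ 0 := by linarith [ht.2]
  unfold rhs
  gcongr
  · exact one_le_exp (by nlinarith)
  · exact hε t this θ

lemma Half.inf_zero (hc : Sect ν c m) (hm : 0 ≤ m) (hc' : ∀ θ θ', -1 ≤ c θ θ') (hν : ν ≠ 0)
    (hK : 0 < K) (hp : 0 < p) (h : Half ν c m K A p u v) (hA : 0 < 2 + A) :
    ∀ ε > 0, ∃ t θ, v t θ < ε := by
  intro ε ε0
  by_contra hε
  push Not at hε
  refine h.unbdd hc hm hc' hν (δ := K * 1 * ε ^ p) (by positivity) fun k =>
    ⟨0, fun t ht θ => ?_⟩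
  have : 0 ≤ t := ht.1
  unfold rhs
  gcongr
  · exact one_le_exp (by positivity)
  · exact hε t θ

lemma Half.recur (hc : Sect ν c m) (hm : 0 ≤ m) (hc' : ∀ θ θ', -1 ≤ c θ θ') (θ : Θ)
    (hK : 0 < K) (hp : 0 < p) (h : Half ν c m K A p u v) (h' : Half ν c m K B q v u)
    (hA : 0 < 2 + A) (T : ℝ) : K * (4 ^ (-m)) ^ p * ν.real univ * exp ((2 + A) * T) *
      (tail ν (rhs K B q u) (T + 1)).toReal ^ p ≤ (tail ν (rhs K A p v) T).toReal := by
  obtain ⟨C, -, hC⟩ := h.tail_bdd hc hm hc' θ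
  obtain ⟨C', -, hC'⟩ := h'.tail_bdd hc hm hc' θ
  have := tail_ge (ν := ν) (F := rhs K A p v) (a := T) (b := T + 1) (δ := K * exp ((2 + A) * T) *
    (4 ^ (-m) * (tail ν (rhs K B q u) (T + 1)).toReal) ^ p) fun t ht θ => by
      unfold rhs
      gcongr
      · exact ht.1
      have := (mul_le_mul_right (tail_anti ht.2.le) _).trans
        ((tail_le hc hm hc' t θ).trans (h'.le t θ))
      rw [← ENNReal.ofReal_toReal ((hC' (T + 1)).trans_lt ENNReal.ofReal_lt_top).ne,
        ← ENNReal.ofReal_mul (by positivity)] at this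
      exact (ENNReal.ofReal_le_ofReal_iff (h'.pos _ _).le).1 this
  rw [add_sub_cancel_left, ENNReal.ofReal_one, one_mul, ← ofReal_measureReal,
    ← ENNReal.ofReal_mul (by positivity),
    ENNReal.ofReal_le_iff_le_toReal ((hC T).trans_lt ENNReal.ofReal_lt_top).ne,
    mul_rpow (by positivity) (by positivity)] at this
  linarith

variable [BorelSpace Θ] [SecondCountableTopology Θ]

omit [IsFiniteMeasure ν] [BorelSpace Θ] [SecondCountableTopology Θ] in
lemma Half.cont_rhs (h' : Half ν c m K B q v u) (A p : ℝ) :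
    Continuous (Function.uncurry (rhs K A p v)) :=
  Continuous.mul (by fun_prop) (h'.cont.rpow_const fun z => Or.inl (h'.pos z.1 z.2).ne')

lemma Half.dens (hc : Sect ν c m) (hm : 0 ≤ m) (hc' : ∀ θ θ', -1 ≤ c θ θ') (hν : ν ≠ 0)
    (hK : 0 < K) (hp : 0 < p) (hq : 0 < q) (h : Half ν c m K A p u v) (h' : Half ν c m K B q v u)
    {l μ : ℝ} (hl : 0 < l) (h1 : 0 < 2 + A + l - p * μ) (h2 : 0 < 2 + B + μ - q * l) :
    Dens ν fun t θ => exp (l * t) * rhs K A p v t θ := by
  have θ := (nonempty_of_measure_ne_zero (Measure.measure_univ_ne_zero.2 hν)).some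
  have hA := h.exp_pos hc hm hc' hν hK hp h'
  have hB := h'.exp_pos hc hm hc' hν hK hq h
  have n0 : 0 < ν.real univ := ENNReal.toReal_pos (Measure.measure_univ_ne_zero.2 hν)
    (measure_ne_top _ _)
  obtain ⟨C, C0, hC⟩ := h.tail_bdd hc hm hc' θ
  refine ⟨Continuous.mul (by fun_prop) (h'.cont_rhs A p), ?_, fun T => ?_⟩
  · obtain ⟨α, h3, h4⟩ := decay hp hq (by positivity) (by positivity)
      (fun _ => ENNReal.toReal_nonneg) (fun _ => ENNReal.toReal_nonneg)
      ⟨C, C0, 0, fun T _ => by simpa using ENNReal.toReal_le_of_le_ofReal C0.le (hC T)⟩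
      (h.recur hc hm hc' θ hK hp h' hA) (h'.recur hc hm hc' θ hK hq h hB) hl.le (by positivity)
      (by nlinarith)
    exact mass_fin (h'.cont_rhs A p).measurable hl h3 hC h4
  · obtain ⟨C, hC⟩ := h'.bdd T
    refine ⟨exp (l * T) * (K * exp ((2 + A) * T) * C ^ p), fun t ht θ => ?_⟩
    have := h'.pos t θ
    have := hC t ht θ
    have : 0 < C := by linarith
    unfold rhs
    gcongr

omit [IsFiniteMeasure ν] [BorelSpace Θ] [SecondCountableTopology Θ] in
lemma Half.pot (hc : Sect ν c m) (hK : 0 < K) (hp : 0 < p) (h' : Half ν c m K B q v u)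
    (h0 : ∀ ε > 0, ∃ t θ, v t θ < ε) {l μ κ : ℝ} (hμ : 0 ≤ μ) (hκ : κ = μ - m) :
    Pot ν c m κ ((2 + A + l - p * μ) / p) (fun t θ => exp (l * t) * rhs K A p v t θ)
      (fun t θ => exp (μ * t) * rhs K B q u t θ) (fun t θ => exp (μ * t) * v t θ) := by
  refine ⟨fun t θ => mul_pos (Real.exp_pos _) (h'.pos _ _), fun T => ?_, fun t t' θ e => ?_,
    fun t θ => ?_⟩
  · obtain ⟨C, hC⟩ := h'.bdd T
    refine ⟨exp (μ * T) * C, fun t ht θ => ?_⟩
    have := h'.pos t θ
    have := hC t ht θ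
    gcongr
  · have p1 := h'.pos t θ
    have p2 := h'.pos t' θ
    have := congrArg log e
    unfold rhs at this
    rw [log_mul (by positivity) (by positivity), log_mul (by positivity) (by positivity),
      log_mul (by positivity) (by positivity), log_mul (by positivity) (by positivity),
      log_mul (by positivity) (by positivity), log_mul (by positivity) (by positivity),
      log_rpow p1, log_rpow p2] at this
    simp only [log_exp] at this
    rw [← exp_log p1, ← exp_log p2, ← exp_add, ← exp_add, ← exp_add]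
    congr 1
    field_simp
    linarith
  · rw [ENNReal.ofReal_mul (Real.exp_pos _).le, ← h'.eq h0, newt,
      ← lintegral_const_mul' _ _ ENNReal.ofReal_ne_top]
    refine lintegral_congr fun z => ?_
    have k0 := fun κ => ker_nonneg (hc.le θ z.2) m κ (t - z.1)
    rw [ENNReal.ofReal_mul (Real.exp_pos _).le, ← mul_assoc, ← mul_assoc,
      ← ENNReal.ofReal_mul (k0 _), ← ENNReal.ofReal_mul (Real.exp_pos _).le, ker, ker,
      mul_right_comm, ← mul_assoc, ← exp_add, ← exp_add, hκ]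
    congr 4
    ring

theorem cyl (hc : Sect ν c m) (hm : 0 < m) (hc' : ∀ θ θ', -1 ≤ c θ θ') (hν : ν ≠ 0)
    (hK : 0 < K) (hp : 0 < p) (hq : 0 < q) (h : Half ν c m K A p u v) (h' : Half ν c m K B q v u)
    (hsub : 2 * m < (2 * m + 2 + A) / (p + 1) + (2 * m + 2 + B) / (q + 1)) : False := by
  have θ := (nonempty_of_measure_ne_zero (Measure.measure_univ_ne_zero.2 hν)).some
  have hA := h.exp_pos hc hm.le hc' hν hK hp h'
  have hB := h'.exp_pos hc hm.le hc' hν hK hq h
  set a := (2 * m + 2 + A) / (p + 1) with ha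
  set b := (2 * m + 2 + B) / (q + 1) with hb
  have a0 : 0 < a := div_pos (by linarith) (by linarith)
  have b0 : 0 < b := div_pos (by linarith) (by linarith)
  have ea : (p + 1) * a = 2 * m + 2 + A := by rw [ha]; field_simp
  have eb : (q + 1) * b = 2 * m + 2 + B := by rw [hb]; field_simp
  set r := 2 * m / (a + b) with hr
  have r0 : 0 < r := by positivity
  have r1 : r < 1 := (div_lt_one (by positivity)).2 hsub
  have er : r * a + r * b = 2 * m := by rw [hr]; field_simp
  have s1 : 0 < 2 + A + r * b - p * (r * a) := by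
    nlinarith [mul_pos (sub_pos.2 r1) (mul_pos (show 0 < p + 1 by linarith) a0)]
  have s2 : 0 < 2 + B + r * a - q * (r * b) := by
    nlinarith [mul_pos (sub_pos.2 r1) (mul_pos (show 0 < q + 1 by linarith) b0)]
  have ra := mul_pos r0 a0
  have rb := mul_pos r0 b0
  exact core' hc hm (κ := r * a - m) (abs_le.2 ⟨by linarith, by linarith⟩) (div_pos s1 hp)
    (div_pos s2 hq) (h.dens hc hm.le hc' hν hK hp hq h' rb s1 s2)
    (h'.dens hc hm.le hc' hν hK hq hp h ra s2 s1)
    (h'.pot hc hK hp (h.inf_zero hc hm.le hc' hν hK hp hA) ra.le rfl)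
    (h.pot hc hK hq (h'.inf_zero hc hm.le hc' hν hK hq hB) rb.le (by linarith)) θ

end Vale.Agent.P100
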