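import Vale.Agent.P100.Mass
import Mathlib.MeasureTheory.Constructions.HaarToSphere
import Mathlib.MeasureTheory.Function.JacobianOneDim
import Mathlib.MeasureTheory.Measure.Haar.InnerProductSpace
import Mathlib.Analysis.SpecialFunctions.Pow.Integral
import Mathlib.Analysis.Complex.ExponentialBounds

/-! Logarithmic polar coordinates. -/

open MeasureTheory Set Real Filter Topology Metric Module
open scoped ENNReal InnerProductSpace Pointwise

namespace Vale.Agent.P100

variable {E : Type} [NormedAddCommGroup E] [InnerProductSpace ℝ E] [FiniteDimensional ℝ E]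
  [MeasurableSpace E] [BorelSpace E]

lemma polar (hn : 1 ≤ finrank ℝ E) {h : E → ℝ≥0∞} (hm : Measurable h) :
    ∫⁻ y, h y = ∫⁻ p : ℝ × sphere (0 : E) 1, h (exp p.1 • p.2.1) *
      ENNReal.ofReal (exp (finrank ℝ E * p.1)) ∂(volume.prod (volume : Measure E).toSphere) := by
  have : Nontrivial E := Module.nontrivial_of_finrank_pos (R := ℝ) hn
  rw [show ∫⁻ y, h y = ∫⁻ y in {0}ᶜ, h y by rw [restrict_compl_singleton],
    ← lintegral_subtype_comap (measurableSet_singleton _).compl,
    ← ((volume : Measure E).measurePreserving_homeomorphUnitSphereProd.symm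
      (homeomorphUnitSphereProd E).toMeasurableEquiv).lintegral_comp
      (f := fun x : ({0}ᶜ : Set E) => h x) (by fun_prop),
    lintegral_prod _ (Measurable.aemeasurable (by fun_prop)),
    lintegral_prod_symm _ (Measurable.aemeasurable (by fun_prop))]
  refine lintegral_congr fun θ => ?_
  rw [Measure.volumeIoiPow, lintegral_withDensity_eq_lintegral_mul _ (by fun_prop) (by fun_prop)]
  refine ((lintegral_congr fun r => ?_).trans (lintegral_subtype_comap measurableSet_Ioi
    fun r : ℝ => ENNReal.ofReal (r ^ (finrank ℝ E - 1)) * h (r • θ.1))).trans ?_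
  · simp
  rw [← range_exp, ← image_univ, lintegral_image_eq_lintegral_abs_deriv_mul .univ
    (fun x _ => (hasDerivAt_exp x).hasDerivWithinAt) exp_injective.injOn, Measure.restrict_univ]
  refine lintegral_congr fun t => ?_
  rw [abs_of_pos (exp_pos t), ← mul_assoc, ← ENNReal.ofReal_mul (exp_pos t).le, ← pow_succ',
    Nat.sub_add_cancel hn, exp_nat_mul, mul_comm]

omit [FiniteDimensional ℝ E] [MeasurableSpace E] [BorelSpace E] in
lemma normsq (t t' : ℝ) (θ θ' : sphere (0 : E) 1) :
    ‖exp t • θ.1 - exp t' • θ'.1‖ ^ 2 = exp (t + t') * Dk (t - t') ⟪θ.1, θ'.1⟫_ℝ := by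
  rw [@norm_sub_sq_real, norm_smul, norm_smul, norm_eq_of_mem_sphere, norm_eq_of_mem_sphere,
    inner_smul_left, inner_smul_right, Dk, cosh_eq, neg_sub, exp_sub, exp_sub, exp_add,
    Real.norm_of_nonneg (exp_pos _).le, Real.norm_of_nonneg (exp_pos _).le]
  have := exp_pos t
  have := exp_pos t'
  simp only [conj_trivial]
  field_simp
  ring

omit [FiniteDimensional ℝ E] [MeasurableSpace E] [BorelSpace E] in
lemma abs_inner_le (θ θ' : sphere (0 : E) 1) : |⟪θ.1, θ'.1⟫_ℝ| ≤ 1 := by
  simpa using abs_real_inner_le_norm θ.1 θ'.1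

lemma sect {m : ℝ} (hm : 0 < m) (hn : (finrank ℝ E : ℝ) = 2 * m + 2) :
    Sect (volume : Measure E).toSphere (fun θ θ' => ⟪θ.1, θ'.1⟫_ℝ) m := by
  have h2 : 2 < finrank ℝ E := by exact_mod_cast (show (2 : ℝ) < finrank ℝ E by linarith)
  refine ⟨Continuous.measurable (by fun_prop), fun θ θ' => le_of_abs_le (abs_inner_le θ θ'),
    fun θ θ' => real_inner_comm _ _, fun θ => ?_, ?_⟩
  · have h0 : (volume : Measure E).toSphere {θ} = 0 := by
      have h1 : (ℝ ∙ θ.1 : Submodule ℝ E) ≠ ⊤ := by
        intro h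
        have := finrank_span_le_card (R := ℝ) {θ.1}
        rw [h] at this
        simp only [finrank_top, toFinset_singleton, Finset.card_singleton] at this
        omega
      rw [Measure.toSphere_apply' _ (measurableSet_singleton _),
        measure_mono_null _ (Measure.addHaar_submodule _ _ h1), mul_zero]
      rintro _ ⟨r, -, _, ⟨_, rfl, rfl⟩, rfl⟩
      exact Submodule.smul_mem _ _ (Submodule.mem_span_singleton_self _)
    filter_upwards [compl_mem_ae_iff.2 h0] with θ' h
    exact (inner_lt_one_iff_real_of_norm_eq_one (by simp) (by simp)).2 fun e => h (Subtype.ext e.symm)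
  · set g : E → ℝ≥0∞ := (ball 0 4).indicator fun y => ENNReal.ofReal (‖y‖ ^ (-(2 * m + 1))) with hg
    have mg : Measurable g := Measurable.indicator (by fun_prop) measurableSet_ball
    refine ⟨ENNReal.ofReal (exp (2 * m + 2)) * ∫⁻ y, g y, ENNReal.mul_ne_top ENNReal.ofReal_ne_top
      (ne_of_lt ?_), fun θ => ?_⟩
    · rw [hg, lintegral_indicator measurableSet_ball]
      exact (integrableOn_ball_of_norm_le_rpow (by omega) (C := 1) (α := 2 * m + 1) (by linarith)
        (Eventually.of_forall fun y => by simp [abs_of_nonneg (rpow_nonneg (norm_nonneg y) _)])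
        (Measurable.aestronglyMeasurable (by fun_prop))).lintegral_lt_top
    rw [← lintegral_sub_left_eq_self g θ.1, polar (by omega) (by fun_prop),
      ← lintegral_const_mul' _ _ ENNReal.ofReal_ne_top]
    refine lintegral_mono fun p => ?_
    by_cases hp : p.1 ∈ Icc (-1 : ℝ) 1
    swap
    · simp [sing, indicator_of_notMem hp]
    have h1 : θ.1 - exp p.1 • p.2.1 ∈ ball (0 : E) 4 := by
      rw [mem_ball_zero_iff]
      refine (norm_sub_le _ _).trans_lt ?_
      rw [norm_smul, norm_eq_of_mem_sphere, norm_eq_of_mem_sphere,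
        Real.norm_of_nonneg (exp_pos _).le]
      linarith [exp_le_exp.2 hp.2, exp_one_lt_three]
    have h3 := normsq 0 p.1 θ p.2
    rw [exp_zero, one_smul, zero_add, zero_sub, Dk, cosh_neg, ← Dk] at h3
    have D0 := Dk_nonneg (le_of_abs_le (abs_inner_le θ p.2)) p.1
    rw [sing, indicator_of_mem hp, hg, indicator_of_mem h1,
      show -(2 * m + 1) = (2 : ℕ) * (-m - 1 / 2) by push_cast; ring, rpow_natCast_mul
      (norm_nonneg _), h3, mul_rpow (exp_pos _).le D0, ← ENNReal.ofReal_mul (by positivity),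
      ← ENNReal.ofReal_mul (by positivity), ← exp_mul, mul_right_comm, ← mul_assoc, ← exp_add,
      ← exp_add, hn]
    exact ENNReal.ofReal_le_ofReal (le_mul_of_one_le_left (by positivity)
      (one_le_exp (by nlinarith [hp.1])))

/-- the Newton potential -/
noncomputable def Newt (m : ℝ) (f : E → ℝ) (x : E) : ℝ≥0∞ :=
  ∫⁻ y, ENNReal.ofReal ((‖x - y‖ ^ 2) ^ (-m)) * ENNReal.ofReal (f y)

lemma Newt_eq {m : ℝ} (hm : 0 < m) (hn : (finrank ℝ E : ℝ) = 2 * m + 2) {f : E → ℝ}
    (hf : Measurable f) (t : ℝ) (θ : sphere (0 : E) 1) :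
    Newt m f (exp t • θ.1) = newt (volume : Measure E).toSphere (fun θ θ' => ⟪θ.1, θ'.1⟫_ℝ) m
      (fun t θ => exp (2 * t) * f (exp t • θ.1)) t θ := by
  have h2 : 2 < finrank ℝ E := by exact_mod_cast (show (2 : ℝ) < finrank ℝ E by linarith)
  rw [Newt, polar (by omega) (by fun_prop)]
  refine lintegral_congr fun p => ?_
  have D0 := Dk_nonneg (le_of_abs_le (abs_inner_le θ p.2)) (t - p.1)
  rw [normsq, ENNReal.ofReal_mul (exp_pos _).le, mul_right_comm, ← mul_assoc]
  congr 1
  rw [← ENNReal.ofReal_mul (by positivity), ← ENNReal.ofReal_mul (by unfold ker; positivity),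
    mul_rpow (exp_pos _).le D0, ker, mul_right_comm, mul_right_comm _ _ (exp (2 * _)), ← exp_mul,
    ← exp_add, ← exp_add, hn]
  congr 3
  ring

end Vale.Agent.P100
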