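import Vale.Agent.P100.Growth
import Vale.Agent.P100.Polar
import Mathlib.MeasureTheory.Integral.PeakFunction
import Mathlib.Analysis.SpecialFunctions.JapaneseBracket

/-! The Riesz representation of nonnegative supersolutions. -/

open MeasureTheory Set Real Filter Topology Metric Module
open scoped ENNReal

namespace Vale.Agent.P100

lemma rpow_sub_le {k x y : ℝ} (hk : 0 ≤ k) (hx : 0 < x) (hxy : x ≤ y) :
    x ^ (-k) - y ^ (-k) ≤ k * (y - x) * x ^ (-k - 1) := by
  have hy := hx.trans_le hxy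
  have h1 : 1 - k * (y / x - 1) ≤ (y / x) ^ (-k) := by
    rw [rpow_def_of_pos (div_pos hy hx)]
    nlinarith [add_one_le_exp (log (y / x) * -k), log_le_sub_one_of_pos (div_pos hy hx)]
  rw [div_rpow hy.le hx.le, le_div_iff₀ (rpow_pos_of_pos hx _)] at h1
  rw [rpow_sub_one hx.ne', show k * (y - x) * (x ^ (-k) / x) = k * (y / x - 1) * x ^ (-k) by
    field_simp]
  linarith

lemma shift_le {k a w : ℝ} (hk : k ≤ 0) (ha : 0 < a) (hw : 0 ≤ w) :
    (w + a) ^ k ≤ min a 1 ^ k * (w + 1) ^ k := by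
  have h0 : 0 < min a 1 := lt_min ha one_pos
  rw [← mul_rpow h0.le (by positivity)]
  exact rpow_le_rpow_of_nonpos (by positivity)
    (by nlinarith [min_le_left a 1, min_le_right a 1]) hk

variable {E : Type} [NormedAddCommGroup E] [InnerProductSpace ℝ E] [FiniteDimensional ℝ E]
  [MeasurableSpace E] [BorelSpace E] {u f : E → ℝ} {m : ℝ}

/-- the average of `u` at scale `a` -/
noncomputable def avg (m : ℝ) (u : E → ℝ) (x : E) (a : ℝ) : ℝ :=
  ∫ y, u y * (a * (‖y - x‖ ^ 2 + a) ^ (-m - 2))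

lemma int_avg (hu : Sup u f) (hm : 0 < m) (hn : (finrank ℝ E : ℝ) = 2 * m + 2) (x : E) {a : ℝ}
    (ha : 0 < a) : Integrable fun y => u y * (a * (‖y - x‖ ^ 2 + a) ^ (-m - 2)) := by
  refine ((growth hu hm hn x).mul_const (a * min a 1 ^ (-m - 2))).mono'
    (Measurable.aestronglyMeasurable (by have := hu.c0.measurable; fun_prop))
    (Eventually.of_forall fun y => ?_)
  have := hu.u0 y
  have := shift_le (show -m - 2 ≤ 0 by linarith) ha (sq_nonneg ‖y - x‖)
  rw [Real.norm_of_nonneg (by positivity)]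
  calc _ ≤ u y * (a * (min a 1 ^ (-m - 2) * (‖y - x‖ ^ 2 + 1) ^ (-m - 2))) := by gcongr
    _ = _ := by ring

lemma avg_identity (hu : Sup u f) (hm : 0 < m) (hn : (finrank ℝ E : ℝ) = 2 * m + 2) (x : E)
    {a b : ℝ} (ha : 0 < a) (hab : a ≤ b) :
    ∫⁻ y, ENNReal.ofReal (((‖y - x‖ ^ 2 + a) ^ (-m) - (‖y - x‖ ^ 2 + b) ^ (-m)) * f y) =
      ENNReal.ofReal (4 * m * (m + 1) * (avg m u x a - avg m u x b)) ∧
      avg m u x b ≤ avg m u x a := by
  have hb := ha.trans_le hab
  have e : ∀ w, 0 ≤ w → LL (2 * m + 2) (fun w => -m * (w + a) ^ (-m - 1) - -m * (w + b) ^ (-m - 1))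
      (fun w => m * (m + 1) * (w + a) ^ (-m - 2) - m * (m + 1) * (w + b) ^ (-m - 2)) w =
      -(4 * m * (m + 1)) * (a * (w + a) ^ (-m - 2) - b * (w + b) ^ (-m - 2)) := by
    intro w hw
    rw [LL, show -m - 1 = -m - 2 + 1 by ring, rpow_add_one (by positivity),
      rpow_add_one (by positivity)]
    ring
  obtain ⟨g1, g2⟩ := green_inf hu hm hn x ((C2_pow ha m).sub (C2_pow hb m))
    (C := (m * (b - a) * (1 + a) + m * (m + 1) * (b - a) + 4 * m * (m + 1) * (a + b)) *
      min a 1 ^ (-m - 2))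
    (fun w hw => sub_nonneg.2 (rpow_le_rpow_of_nonpos (by positivity) (by linarith) (by linarith)))
    (fun w hw => by
      have wa : 0 < w + a := by positivity
      have s1 := shift_le (show -m - 2 ≤ 0 by linarith) ha hw
      have s2 := rpow_sub_le hm.le wa (show w + a ≤ w + b by linarith)
      have s3 := rpow_sub_le (show 0 ≤ m + 1 by linarith) wa (show w + a ≤ w + b by linarith)
      have s4 := rpow_le_rpow_of_nonpos wa (show w + a ≤ w + b by linarith)
        (show -m - 1 ≤ 0 by linarith)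
      have s5 := rpow_le_rpow_of_nonpos wa (show w + a ≤ w + b by linarith)
        (show -m - 2 ≤ 0 by linarith)
      have s6 : 0 ≤ (w + b) ^ (-m - 2) := by positivity
      have s7 : (w + a) ^ (-m - 1) = (w + a) ^ (-m - 2) * (w + a) := by
        rw [← rpow_add_one wa.ne']; congr 1; ring
      rw [show -(m + 1) = -m - 1 by ring, show -m - 1 - 1 = -m - 2 by ring] at s3
      rw [add_sub_add_left_eq_sub] at s2 s3
      have ba := sub_nonneg.2 hab
      rw [e w hw, mul_assoc _ (min a 1 ^ _)]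
      generalize min a 1 ^ (-m - 2) * (w + 1) ^ (-m - 2) = R at *
      have R0 : 0 ≤ R := s6.trans (s5.trans s1)
      have p1 : 0 ≤ m * (b - a) * (1 + a) * R := by positivity
      have p2 : 0 ≤ m * (m + 1) * (b - a) * R := by positivity
      have p3 : 0 ≤ 4 * m * (m + 1) * (a + b) * R := by positivity
      refine ⟨s2.trans ?_, ?_, ?_⟩
      · calc _ ≤ m * (b - a) * (R * ((1 + a) * (w + 1))) := by rw [s7]; gcongr; nlinarith
          _ = m * (b - a) * (1 + a) * R * (w + 1) := by ring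
          _ ≤ _ := mul_le_mul_of_nonneg_right (by linarith) (by positivity)
      · rw [← mul_sub, abs_mul, abs_neg, abs_of_pos hm, abs_of_nonneg (sub_nonneg.2 s4)]
        calc _ ≤ m * ((m + 1) * (b - a) * R) := by gcongr; exact s3.trans (by gcongr)
          _ ≤ _ := by linarith
      · rw [abs_mul, abs_neg, abs_of_nonneg (by positivity)]
        calc _ ≤ 4 * m * (m + 1) * (a * R + b * R) := by
              gcongr
              refine (abs_sub _ _).trans ?_
              rw [abs_of_nonneg (by positivity), abs_of_nonneg (by positivity)]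
              gcongr
              exact s5.trans s1
          _ ≤ _ := by linarith)
  have e2 : ∫ y, u y * LL (2 * m + 2) (fun w => -m * (w + a) ^ (-m - 1) - -m * (w + b) ^ (-m - 1))
      (fun w => m * (m + 1) * (w + a) ^ (-m - 2) - m * (m + 1) * (w + b) ^ (-m - 2))
      (‖y - x‖ ^ 2) = -(4 * m * (m + 1) * (avg m u x a - avg m u x b)) := by
    rw [avg, avg, ← integral_sub (int_avg hu hm hn x ha) (int_avg hu hm hn x hb),
      ← integral_const_mul, ← integral_neg]
    exact integral_congr_ae (Eventually.of_forall fun y => by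
      simp only [e _ (sq_nonneg _)]; ring)
  rw [e2] at g1 g2
  exact ⟨by rw [g1, neg_neg], sub_nonneg.1 (nonneg_of_mul_nonneg_right (neg_nonpos.1 g2)
    (by positivity))⟩

lemma int_one (hn : (finrank ℝ E : ℝ) = 2 * m + 2) :
    0 < ∫ z : E, (‖z‖ ^ 2 + 1) ^ (-m - 2) := by
  have i := integrable_rpow_neg_one_add_norm_sq (E := E) (μ := volume) (r := 2 * m + 4)
    (by linarith)
  simp only [show -(2 * m + 4) / 2 = -m - 2 by ring, add_comm (1 : ℝ)] at i
  rw [integral_pos_iff_support_of_nonneg (fun z => by positivity) i,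
    eq_univ_of_forall (s := Function.support _) fun z => ne_of_gt (by positivity)]
  exact isOpen_univ.measure_pos _ univ_nonempty

lemma peak (hu : Sup u f) (hm : 0 < m) (hn : (finrank ℝ E : ℝ) = 2 * m + 2) (x : E) :
    Tendsto (fun c : ℝ => avg m u x (c ^ 2)⁻¹) atTop
      (𝓝 ((∫ z : E, (‖z‖ ^ 2 + 1) ^ (-m - 2)) * u x)) := by
  have := FiniteDimensional.proper_real E
  have c0 := int_one hn
  set c₀ := ∫ z : E, (‖z‖ ^ 2 + 1) ^ (-m - 2) with hc₀
  have T1 := (tendsto_integral_comp_smul_smul_of_integrable' (μ := volume)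
    (φ := fun z : E => c₀⁻¹ * (‖z‖ ^ 2 + 1) ^ (-m - 2)) (fun z => by positivity)
    (by rw [integral_const_mul, inv_mul_cancel₀ c0.ne']) (by
      have t : Tendsto (fun z : E => c₀⁻¹ * (‖z‖ ^ 2 + 1)⁻¹) (Bornology.cobounded E) (𝓝 (c₀⁻¹ * 0)) :=
        (tendsto_atTop_add_const_right _ _ ((tendsto_pow_atTop two_ne_zero).comp
          tendsto_norm_cobounded_atTop)).inv_tendsto_atTop.const_mul _
      rw [mul_zero] at t
      refine squeeze_zero (fun z => by positivity) (fun z => ?_) t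
      rw [mul_left_comm, ← rpow_natCast, hn, show 2 * m + 2 = (2 : ℕ) * (m + 1) by push_cast; ring,
        rpow_natCast_mul (norm_nonneg _), ← rpow_neg_one (_ + _), show (-1 : ℝ) = m + 1 + (-m - 2) by ring,
        rpow_add (by positivity) (m + 1)]
      gcongr
      linarith)
    (g := (ball x 1).indicator u) (x₀ := x) ((integrable_indicator_iff measurableSet_ball).2
      ((hu.c0.continuousOn.integrableOn_compact (isCompact_closedBall x 1)).mono_set
      ball_subset_closedBall)) (hu.c0.continuousAt.congr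
      ((eventually_mem_set.2 (ball_mem_nhds x one_pos)).mono fun y hy =>
        (indicator_of_mem hy u).symm))).const_mul c₀
  rw [indicator_of_mem (mem_ball_self one_pos)] at T1
  have T2 : Tendsto (fun c : ℝ => ∫ y in (ball x 1)ᶜ, u y * ((c ^ 2)⁻¹ *
      (‖y - x‖ ^ 2 + (c ^ 2)⁻¹) ^ (-m - 2))) atTop (𝓝 0) := by
    have t := ((tendsto_pow_atTop (α := ℝ) two_ne_zero).inv_tendsto_atTop.mul_const
      (∫ y in (ball x 1)ᶜ, u y * (‖y - x‖ ^ 2 + 1) ^ (-m - 2) * (2⁻¹ : ℝ) ^ (-m - 2)))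
    rw [zero_mul] at t
    refine squeeze_zero (fun c => integral_nonneg fun y => by have := hu.u0 y; positivity)
      (fun c => ?_) t
    rw [← integral_const_mul]
    refine integral_mono_of_nonneg (Eventually.of_forall fun y => by have := hu.u0 y; positivity)
      (((growth hu hm hn x).mul_const _).const_mul _).integrableOn ?_
    filter_upwards [ae_restrict_mem measurableSet_ball.compl] with y hy
    rw [mem_compl_iff, mem_ball_iff_norm, not_lt] at hy
    have := hu.u0 y
    rw [mul_left_comm, mul_assoc (u y), ← mul_rpow (by positivity) (by positivity), Pi.inv_apply]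
    gcongr _ * (_ * ?_)
    have : 0 ≤ (c ^ 2)⁻¹ := by positivity
    exact rpow_le_rpow_of_nonpos (by positivity) (by nlinarith) (by linarith)
  rw [← add_zero (c₀ * u x)]
  refine (T1.add T2).congr' ((eventually_gt_atTop 0).mono fun c hc => ?_)
  have c2 : 0 < c ^ 2 := by positivity
  simp only
  rw [avg, ← integral_add_compl measurableSet_ball (int_avg hu hm hn x (inv_pos.2 c2)),
    ← integral_const_mul, ← integral_indicator measurableSet_ball]
  congr 2 with y
  by_cases hy : y ∈ ball x 1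
  swap
  · simp [indicator_of_notMem hy]
  rw [indicator_of_mem hy, indicator_of_mem hy, norm_smul, norm_sub_rev, Real.norm_of_nonneg hc.le,
    mul_pow, show c ^ 2 * ‖y - x‖ ^ 2 + 1 = c ^ 2 * (‖y - x‖ ^ 2 + (c ^ 2)⁻¹) by field_simp,
    mul_rpow c2.le (by positivity), ← rpow_natCast c (finrank ℝ E), hn,
    show 2 * m + 2 = (2 : ℕ) * (m + 1) by push_cast; ring, rpow_natCast_mul hc.le,
    ← rpow_neg_one (c ^ 2), show (-1 : ℝ) = m + 1 + (-m - 2) by ring, rpow_add c2 (m + 1),
    smul_eq_mul]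
  field_simp

lemma avg_ratio (hu : Sup u f) (hm : 0 < m) (hn : (finrank ℝ E : ℝ) = 2 * m + 2) (x x' : E)
    {b : ℝ} (hb : 0 < b) (h : ‖x - x'‖ ^ 2 ≤ b) :
    avg m u x b ≤ (3⁻¹ : ℝ) ^ (-m - 2) * avg m u x' b := by
  rw [avg, avg, ← integral_const_mul]
  refine integral_mono (int_avg hu hm hn x hb) ((int_avg hu hm hn x' hb).const_mul _) fun y => ?_
  have := hu.u0 y
  have h1 := norm_sub_le_norm_sub_add_norm_sub y x x'
  have h2 := pow_le_pow_left₀ (norm_nonneg _) h1 2
  simp only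
  rw [mul_left_comm _ (u y), mul_left_comm (_ ^ _) b, ← mul_rpow (by positivity) (by positivity)]
  gcongr _ * (_ * ?_)
  exact rpow_le_rpow_of_nonpos (by positivity)
    (by nlinarith [sq_nonneg (‖y - x‖ - ‖x - x'‖), sq_nonneg ‖y - x‖]) (by linarith)

theorem repr (hm : 0 < m) (hn : (finrank ℝ E : ℝ) = 2 * m + 2) : ∃ K > 0, ∀ u f : E → ℝ, Sup u f →
    (∀ x, Newt m (fun y => K * f y) x ≤ ENNReal.ofReal (u x)) ∧
    ((∀ ε > 0, ∃ x, u x < ε) → ∀ x, Newt m (fun y => K * f y) x = ENNReal.ofReal (u x)) := by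
  have h2 : 2 < finrank ℝ E := by exact_mod_cast (show (2 : ℝ) < finrank ℝ E by linarith)
  have : Nontrivial E := Module.nontrivial_of_finrank_pos (R := ℝ) (by omega)
  have c0 := int_one hn
  set c₀ := ∫ z : E, (‖z‖ ^ 2 + 1) ^ (-m - 2) with hc₀
  set κ := 4 * m * (m + 1) with hκ
  have κ0 : 0 < κ := by positivity
  refine ⟨(κ * c₀)⁻¹, by positivity, fun u f hu => ?_⟩
  have ev : ∀ᶠ c : ℝ in atTop, 0 < (c ^ 2)⁻¹ ∧ (c ^ 2)⁻¹ ≤ c ^ 2 := by
    filter_upwards [eventually_ge_atTop 1] with c hc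
    have : 1 ≤ c ^ 2 := one_le_pow₀ hc
    exact ⟨by positivity, (inv_le_one_of_one_le₀ this).trans this⟩
  have t2 := tendsto_pow_atTop (α := ℝ) two_ne_zero
  have T : ∀ x, Tendsto (fun c : ℝ => ENNReal.ofReal ((κ * c₀)⁻¹ * (κ * (avg m u x (c ^ 2)⁻¹ -
      avg m u x (c ^ 2))))) atTop (𝓝 (Newt m (fun y => (κ * c₀)⁻¹ * f y) x)) := by
    intro x
    have aex : ∀ᵐ y : E, y ≠ x := compl_mem_ae_iff.2 (measure_singleton x)
    have e : ∀ y, ENNReal.ofReal ((‖x - y‖ ^ 2) ^ (-m)) * ENNReal.ofReal ((κ * c₀)⁻¹ * f y) =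
        ENNReal.ofReal ((κ * c₀)⁻¹ * ((‖y - x‖ ^ 2) ^ (-m) * f y)) := fun y => by
      rw [← ENNReal.ofReal_mul (by positivity), norm_sub_rev, mul_left_comm]
    simp only [Newt, e]
    refine (lim_cut (F := fun (c : ℝ) y => ENNReal.ofReal ((κ * c₀)⁻¹ *
      (((‖y - x‖ ^ 2 + (c ^ 2)⁻¹) ^ (-m) - (‖y - x‖ ^ 2 + c ^ 2) ^ (-m)) * f y)))
      (fun c => by have := hu.mf; fun_prop) (Eventually.of_forall fun c => aex.mono fun y hy => ?_)
      (aex.mono fun y hy => ENNReal.tendsto_ofReal ?_)).congr' (ev.mono fun c hc => ?_)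
    · have := hu.f0 y
      have : 0 < ‖y - x‖ ^ 2 := pow_pos (norm_pos_iff.2 (sub_ne_zero.2 hy)) 2
      gcongr
      exact (sub_le_self _ (by positivity)).trans (rpow_le_rpow_of_nonpos this
        (le_add_of_nonneg_right (by positivity)) (by linarith))
    · have : 0 < ‖y - x‖ ^ 2 := pow_pos (norm_pos_iff.2 (sub_ne_zero.2 hy)) 2
      simpa using ((((t2.inv_tendsto_atTop.const_add (‖y - x‖ ^ 2)).rpow_const (p := -m)
        (Or.inl (by simpa using sub_ne_zero.2 hy))).sub ((tendsto_rpow_neg_atTop hm).comp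
        (tendsto_atTop_add_const_left _ (‖y - x‖ ^ 2) t2))).mul_const (f y)).const_mul (κ * c₀)⁻¹
    · simp only [ENNReal.ofReal_mul (show 0 ≤ (κ * c₀)⁻¹ by positivity)]
      rw [lintegral_const_mul' _ _ ENNReal.ofReal_ne_top, (avg_identity hu hm hn x hc.1 hc.2).1]
  have le : ∀ x, Newt m (fun y => (κ * c₀)⁻¹ * f y) x ≤ ENNReal.ofReal (u x) := by
    intro x
    have := ENNReal.tendsto_ofReal (((peak hu hm hn x).const_mul κ).const_mul (κ * c₀)⁻¹)
    rw [← hc₀, show (κ * c₀)⁻¹ * (κ * (c₀ * u x)) = u x by field_simp] at this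
    refine le_of_tendsto_of_tendsto' (T x) this fun c => ?_
    gcongr
    exact sub_le_self _ (integral_nonneg fun y => by have := hu.u0 y; positivity)
  refine ⟨le, fun h0 x => le_antisymm (le x) ?_⟩
  have D0 : 0 < (3⁻¹ : ℝ) ^ (-m - 2) := by positivity
  set D := (3⁻¹ : ℝ) ^ (-m - 2) with hD
  refine ENNReal.le_of_forall_pos_le_add fun ε ε0 _ => ?_
  obtain ⟨x', hx'⟩ := h0 (ε / D) (by positivity)
  have := ENNReal.tendsto_ofReal ((((peak hu hm hn x).sub
    ((peak hu hm hn x').const_mul D)).const_mul κ).const_mul (κ * c₀)⁻¹)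
  rw [← hc₀, show (κ * c₀)⁻¹ * (κ * (c₀ * u x - D * (c₀ * u x'))) = u x - D * u x' by
    field_simp] at this
  have h3 := le_of_tendsto_of_tendsto this (T x) (by
    filter_upwards [ev, t2.eventually_ge_atTop (‖x - x'‖ ^ 2)] with c hc hc'
    gcongr
    exact (avg_ratio hu hm hn x x' (hc.1.trans_le hc.2) hc').trans (mul_le_mul_of_nonneg_left
      (avg_identity hu hm hn x' hc.1 hc.2).2 D0.le))
  rw [lt_div_iff₀' D0] at hx'
  calc _ ≤ ENNReal.ofReal (u x - D * u x' + ε) := ENNReal.ofReal_le_ofReal (by linarith)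
    _ ≤ _ := ENNReal.ofReal_add_le.trans (by rw [ENNReal.ofReal_coe_nnreal]; gcongr)

end Vale.Agent.P100
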