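import Vale.Agent.P100.Intv
import Vale.Agent.P100.Kernel
import Mathlib.MeasureTheory.Integral.Prod
import Mathlib.MeasureTheory.Measure.Haar.Unique
import Mathlib.MeasureTheory.Measure.Lebesgue.EqHaar

/-! The total force on the level intervals of one of the two densities. -/

open MeasureTheory Set Real
open scoped ENNReal

namespace Vale.Agent.P100

/-- the singular part of the derivative of the kernel -/
noncomputable def sing (m s c : ℝ) : ℝ := (Icc (-1) 1).indicator (fun s => Dk s c ^ (-m - 1 / 2)) s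

lemma sing_nonneg {c : ℝ} (hc : c ≤ 1) (m s : ℝ) : 0 ≤ sing m s c :=
  indicator_nonneg (fun s _ => rpow_nonneg (Dk_nonneg hc s) _) s

@[fun_prop]
lemma measurable_sing {X : Type} [MeasurableSpace X] (m : ℝ) {f g : X → ℝ} (hf : Measurable f)
    (hg : Measurable g) : Measurable fun x => sing m (f x) (g x) := by
  unfold sing Dk
  simp only [indicator_apply]
  exact Measurable.ite (measurableSet_Icc.preimage hf) (by fun_prop) measurable_const

lemma deriv_ker_le {c m : ℝ} (hc : c < 1) (hm : 0 ≤ m) (κ s : ℝ) :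
    |(κ - m * (2 * sinh s) / Dk s c) * ker m κ s c| ≤
      (|κ| + 3 * m) * ker m κ s c + 2 * m * exp |κ| * sing m s c := by
  have hD := Dk_pos hc s
  have hk := ker_pos hc m κ s
  have hq := sqrt_pos.2 hD
  set y := sinh (|s| / 2) with hy
  have y0 : |s| / 2 ≤ y := self_le_sinh_iff.2 (by positivity)
  have y1 : 0 ≤ y := le_trans (by positivity) y0
  have h1 : 4 * y ^ 2 ≤ Dk s c := by
    have := cosh_two_mul (|s| / 2)
    rw [mul_div_cancel₀ _ two_ne_zero, cosh_abs, cosh_sq] at this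
    unfold Dk; linarith
  have h2 : 2 * y ≤ √(Dk s c) := le_sqrt_of_sq_le (by linarith)
  have h3 : |sinh s| = 2 * y * cosh (|s| / 2) := by
    rw [← sinh_two_mul, mul_div_cancel₀ _ two_ne_zero, abs_sinh]
  have h4 : cosh (|s| / 2) ≤ 1 + y := by
    have := cosh_sub_sinh (|s| / 2)
    have : exp (-(|s| / 2)) ≤ 1 := exp_le_one_iff.2 (neg_nonpos.2 (by positivity))
    linarith
  have h5 : |m * (2 * sinh s) / Dk s c| ≤ m * (1 + 2 / √(Dk s c)) := by
    rw [abs_div, abs_mul, abs_mul, abs_of_nonneg hm, abs_of_pos hD, abs_two, h3, mul_div_assoc]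
    gcongr
    rw [div_le_iff₀ hD, add_mul, one_mul, div_mul_eq_mul_div, mul_div_assoc, div_sqrt]
    nlinarith
  have h6 : ker m κ s c / √(Dk s c) ≤ ker m κ s c + exp |κ| * sing m s c := by
    rcases le_or_gt 1 (√(Dk s c)) with h | h
    · exact (div_le_self hk.le h).trans
        (le_add_of_nonneg_right (mul_nonneg (exp_pos _).le (sing_nonneg hc.le _ _)))
    · have hs : |s| ≤ 1 := by linarith
      rw [sing, indicator_of_mem (show s ∈ Icc (-1) 1 from abs_le.1 hs), rpow_sub hD,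
        ← sqrt_eq_rpow]
      refine le_add_of_nonneg_of_le hk.le ?_
      rw [ker, mul_div_assoc]
      gcongr
      calc κ * s ≤ |κ| * |s| := by rw [← abs_mul]; exact le_abs_self _
        _ ≤ |κ| := mul_le_of_le_one_right (abs_nonneg _) hs
  rw [abs_mul, abs_of_pos hk]
  calc _ ≤ (|κ| + m * (1 + 2 / √(Dk s c))) * ker m κ s c := by
        gcongr; exact (abs_sub _ _).trans (by linarith)
    _ = (|κ| + m) * ker m κ s c + 2 * m * (ker m κ s c / √(Dk s c)) := by ring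
    _ ≤ (|κ| + m) * ker m κ s c + 2 * m * (ker m κ s c + exp |κ| * sing m s c) := by gcongr
    _ = _ := by ring

lemma ker_sub_le {c m : ℝ} (hc : c < 1) (hm : 0 ≤ m) (κ t : ℝ) {a b : ℝ} (hab : a ≤ b) :
    ‖ker m κ (a - t) c - ker m κ (b - t) c‖ₑ ≤ ∫⁻ s in Ioc a b, ENNReal.ofReal
      ((|κ| + 3 * m) * ker m κ (s - t) c + 2 * m * exp |κ| * sing m (s - t) c) := by
  have ck := continuous_ker hc m κ
  have cD : Continuous fun s => Dk s c := by unfold Dk; fun_prop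
  rw [enorm_sub_rev, ← intervalIntegral.integral_eq_sub_of_hasDerivAt
    (f := fun s => ker m κ (s - t) c) (fun s _ => (hasDerivAt_ker hc m κ (s - t)).comp_sub_const s t)
    (Continuous.intervalIntegrable (by
      refine Continuous.mul (continuous_const.sub (Continuous.div (by fun_prop) (by fun_prop)
        fun s => (Dk_pos hc _).ne')) (by fun_prop)) _ _), intervalIntegral.integral_of_le hab]
  refine (enorm_integral_le_lintegral_enorm _).trans (lintegral_mono fun s => ?_)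
  rw [← ofReal_norm]
  exact ENNReal.ofReal_le_ofReal (deriv_ker_le hc hm κ _)

variable {Θ : Type} [TopologicalSpace Θ] [MeasurableSpace Θ] [BorelSpace Θ]
  [SecondCountableTopology Θ]

/-- assumptions on the cross section -/
structure Sect (ν : Measure Θ) (c : Θ → Θ → ℝ) (m : ℝ) : Prop where
  mc : Measurable (Function.uncurry c)
  le : ∀ θ θ', c θ θ' ≤ 1
  symm : ∀ θ θ', c θ θ' = c θ' θ
  lt : ∀ θ, ∀ᵐ θ' ∂ν, c θ θ' < 1
  sing : ∃ C ≠ ∞, ∀ θ, ∫⁻ p, ENNReal.ofReal (sing m p.1 (c θ p.2)) ∂(volume.prod ν) ≤ C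

/-- assumptions on a density -/
structure Dens (ν : Measure Θ) (φ : ℝ → Θ → ℝ) : Prop where
  cont : Continuous (Function.uncurry φ)
  fin : ∫⁻ p, ENNReal.ofReal (φ p.1 p.2) ∂(volume.prod ν) ≠ ∞
  bdd : ∀ T, ∃ C, ∀ t ≤ T, ∀ θ, φ t θ ≤ C

/-- assumptions on a potential -/
structure Pot (ν : Measure Θ) (c : Θ → Θ → ℝ) (m κ σ : ℝ) (φ ψ V : ℝ → Θ → ℝ) : Prop where
  pos : ∀ t θ, 0 < V t θ
  bdd : ∀ T, ∃ C, ∀ t ≤ T, ∀ θ, V t θ ≤ C
  lev : ∀ t t' θ, φ t θ = φ t' θ → V t' θ = exp (-(σ * (t' - t))) * V t θ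
  rep : ∀ t θ, ∫⁻ p, ENNReal.ofReal (ker m κ (t - p.1) (c θ p.2)) * ENNReal.ofReal (ψ p.1 p.2)
    ∂(volume.prod ν) = ENNReal.ofReal (V t θ)

/-- the measure under the graph -/
noncomputable def mu (ν : Measure Θ) (φ : ℝ → Θ → ℝ) : Measure (ℝ × Θ × ℝ) :=
  (volume.prod (ν.prod volume)).restrict (Om φ)

variable {ν : Measure Θ} [SFinite ν] {c : Θ → Θ → ℝ} {m κ σ : ℝ} {φ ψ V : ℝ → Θ → ℝ}

lemma Dens.mu_univ (h : Dens ν φ) :
    mu ν φ univ = ∫⁻ p, ENNReal.ofReal (φ p.1 p.2) ∂(volume.prod ν) := by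
  simpa [mu] using lintegral_Om h.cont ν h.fin (h := fun _ => 1) measurable_const

lemma Dens.finite (h : Dens ν φ) : IsFiniteMeasure (mu ν φ) := ⟨h.mu_univ ▸ h.fin.lt_top⟩

omit [TopologicalSpace Θ] [BorelSpace Θ] [SecondCountableTopology Θ] [SFinite ν] in
lemma Sect.ae_lt (hc : Sect ν c m) (ψ : ℝ → Θ → ℝ) (θ : Θ) : ∀ᵐ ω ∂(mu ν ψ), c θ ω.2.1 < 1 :=
  ae_restrict_of_ae (Measure.quasiMeasurePreserving_snd.ae
    (Measure.quasiMeasurePreserving_fst.ae (hc.lt θ)))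

omit [TopologicalSpace Θ] [BorelSpace Θ] [SecondCountableTopology Θ] [SFinite ν] in
lemma Sect.meas (hc : Sect ν c m) {X : Type} [MeasurableSpace X] {f g : X → Θ} (hf : Measurable f)
    (hg : Measurable g) : Measurable fun x => c (f x) (g x) := hc.mc.comp (hf.prodMk hg)

lemma Pot.rep' (hc : Sect ν c m) (hψ : Dens ν ψ) (h : Pot ν c m κ σ φ ψ V) (t : ℝ) (θ : Θ) :
    ∫⁻ ω, ENNReal.ofReal (ker m κ (t - ω.1) (c θ ω.2.1)) ∂(mu ν ψ) = ENNReal.ofReal (V t θ) := by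
  have : Measurable (c θ) := hc.mc.of_uncurry_left
  rw [← h.rep, ← lintegral_Om hψ.cont ν hψ.fin (by fun_prop)]
  rfl

lemma Pot.integral (hc : Sect ν c m) (hψ : Dens ν ψ) (h : Pot ν c m κ σ φ ψ V) (t : ℝ) (θ : Θ) :
    Integrable (fun ω => ker m κ (t - ω.1) (c θ ω.2.1)) (mu ν ψ) ∧
      ∫ ω, ker m κ (t - ω.1) (c θ ω.2.1) ∂(mu ν ψ) = V t θ := by
  have : Measurable (c θ) := hc.mc.of_uncurry_left
  have mk : Measurable fun ω : ℝ × Θ × ℝ => ker m κ (t - ω.1) (c θ ω.2.1) := by fun_prop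
  have k0 : 0 ≤ᵐ[mu ν ψ] fun ω => ker m κ (t - ω.1) (c θ ω.2.1) :=
    Filter.Eventually.of_forall fun ω => ker_nonneg (hc.le _ _) _ _ _
  refine ⟨⟨mk.aestronglyMeasurable, (hasFiniteIntegral_iff_ofReal k0).2 ?_⟩, ?_⟩
  · rw [h.rep' hc hψ]; exact ENNReal.ofReal_lt_top
  · rw [integral_eq_lintegral_of_nonneg_ae k0 mk.aestronglyMeasurable, h.rep' hc hψ,
      ENNReal.toReal_ofReal (h.pos _ _).le]

lemma Pot.major (hc : Sect ν c m) (hm : 0 ≤ m) (hψ : Dens ν ψ) (h : Pot ν c m κ σ φ ψ V) (T : ℝ) :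
    ∃ C ≠ ∞, ∀ s ≤ T, ∀ θ, ∫⁻ ω, ENNReal.ofReal ((|κ| + 3 * m) * ker m κ (s - ω.1) (c θ ω.2.1) +
      2 * m * exp |κ| * sing m (s - ω.1) (c θ ω.2.1)) ∂(mu ν ψ) ≤ C := by
  obtain ⟨C₀, C₀0, h₀⟩ := hc.sing
  obtain ⟨C₁, h₁⟩ := h.bdd T
  obtain ⟨C₂, h₂⟩ := hψ.bdd (T + 1)
  refine ⟨ENNReal.ofReal (|κ| + 3 * m) * ENNReal.ofReal C₁ + ENNReal.ofReal (2 * m * exp |κ|) *
    (C₀ * ENNReal.ofReal C₂), by finiteness, fun s hs θ => ?_⟩
  have : Measurable (c θ) := hc.mc.of_uncurry_left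
  have e : ∀ ω : ℝ × Θ × ℝ, ENNReal.ofReal ((|κ| + 3 * m) * ker m κ (s - ω.1) (c θ ω.2.1) +
      2 * m * exp |κ| * sing m (s - ω.1) (c θ ω.2.1)) =
      ENNReal.ofReal (|κ| + 3 * m) * ENNReal.ofReal (ker m κ (s - ω.1) (c θ ω.2.1)) +
      ENNReal.ofReal (2 * m * exp |κ|) * ENNReal.ofReal (sing m (s - ω.1) (c θ ω.2.1)) := by
    intro ω
    have := ker_nonneg (hc.le θ ω.2.1) m κ (s - ω.1)
    have := sing_nonneg (hc.le θ ω.2.1) m (s - ω.1)
    rw [ENNReal.ofReal_add (by positivity) (by positivity), ENNReal.ofReal_mul (by positivity),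
      ENNReal.ofReal_mul (by positivity)]
  simp only [e]
  rw [lintegral_add_left (by fun_prop), lintegral_const_mul _ (by fun_prop),
    lintegral_const_mul _ (by fun_prop), h.rep' hc hψ]
  gcongr
  · exact h₁ s hs θ
  refine (lintegral_Om hψ.cont ν hψ.fin (h := fun p => ENNReal.ofReal (sing m (s - p.1) (c θ p.2)))
    (by fun_prop)).trans_le ?_
  calc _ ≤ ∫⁻ p, ENNReal.ofReal (sing m (s - p.1) (c θ p.2)) * ENNReal.ofReal C₂
        ∂(volume.prod ν) := by
        refine lintegral_mono fun p => ?_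
        by_cases hp : s - p.1 ∈ Icc (-1 : ℝ) 1
        · exact mul_le_mul_right (ENNReal.ofReal_le_ofReal (h₂ _ (by linarith [hp.1]) _)) _
        · simp [sing, indicator_of_notMem hp]
    _ = (∫⁻ p, ENNReal.ofReal (sing m p.1 (c θ p.2)) ∂(volume.prod ν)) * ENNReal.ofReal C₂ := by
        rw [lintegral_mul_const _ (by fun_prop)]
        congr 1
        exact MeasurePreserving.lintegral_comp (MeasurePreserving.prod
          (Measure.measurePreserving_sub_left volume s) (MeasurePreserving.id ν))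
          (f := fun p => ENNReal.ofReal (sing m p.1 (c θ p.2))) (by fun_prop)
    _ ≤ _ := by gcongr; exact h₀ θ

/-- the force between two points under the graphs -/
noncomputable def frc (c : Θ → Θ → ℝ) (m κ σ : ℝ) (N : ℕ) (T : ℝ) (φ : ℝ → Θ → ℝ)
    (p : (ℝ × Θ × ℝ) × (ℝ × Θ × ℝ)) : ℝ :=
  force m κ σ N T (lf φ p.1) (rt φ p.1) p.2.1 (c p.1.2.1 p.2.2.1)

omit [SFinite ν] in
lemma measurable_frc (hc : Sect ν c m) (hφ : Dens ν φ) (κ σ : ℝ) (N : ℕ) (T : ℝ) :
    Measurable (frc c m κ σ N T φ) := by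
  have := (intSys hφ.cont).ma
  have := (intSys hφ.cont).mb
  have := hc.mc
  unfold frc force beta eta
  fun_prop

lemma eta_le {σ : ℝ} (L : ℝ) : eta σ L ≤ σ * L / 4 := by
  have := add_one_le_exp (-(σ * L))
  unfold eta; linarith

theorem integrable_frc (hc : Sect ν c m) (hm : 0 ≤ m) (hσ : 0 ≤ σ) (hφ : Dens ν φ) (hψ : Dens ν ψ)
    (h : Pot ν c m κ σ φ ψ V) {N : ℕ} (hN : N ≠ 0) (T : ℝ) :
    Integrable (frc c m κ σ N T φ) ((mu ν φ).prod (mu ν ψ)) := by
  have := hφ.finite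
  have := hψ.finite
  have mf := measurable_frc hc hφ κ σ N T
  obtain ⟨C₀, C₀0, h₀⟩ := h.major hc hm hψ (T + 2)
  obtain ⟨C₁, h₁⟩ := h.bdd (T + 1)
  refine ⟨mf.aestronglyMeasurable, ?_⟩
  rw [hasFiniteIntegral_iff_enorm, lintegral_prod _ mf.enorm.aemeasurable]
  set B := ENNReal.ofReal C₁ + ENNReal.ofReal C₁ with hB
  refine lt_of_le_of_lt (lintegral_mono_ae (g := fun _ => (C₀ + B) + ENNReal.ofReal σ * B) ?_)
    (by rw [lintegral_const]; finiteness)
  filter_upwards [ae_restrict_mem (intSys hφ.cont).mO] with ω hω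
  obtain ⟨⟨l1, l2⟩, l3, l4, -⟩ := Om_spec hφ.cont hω
  simp only [frc]
  set a := lf φ ω
  set b := rt φ ω
  set θ := ω.2.1
  have hab : a < b := l1.trans l2
  have hL := sub_pos.2 hab
  rcases le_or_gt (T + 1) ((a + b) / 2) with hT | hT
  · simp [force, beta_zero hN hT]
  have : Measurable (c θ) := hc.mc.of_uncurry_left
  have hsum : ∫⁻ ω', ENNReal.ofReal (ker m κ (a - ω'.1) (c θ ω'.2.1)) +
      ENNReal.ofReal (ker m κ (b - ω'.1) (c θ ω'.2.1)) ∂(mu ν ψ) ≤ B := by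
    rw [lintegral_add_left (by fun_prop), h.rep' hc hψ, h.rep' hc hψ]
    have v1 := h₁ a (by linarith) θ
    have v2 : V b θ ≤ V a θ := by
      rw [h.lev a b θ (l3.trans l4.symm)]
      exact mul_le_of_le_one_left (h.pos _ _).le (exp_le_one_iff.2 (by nlinarith))
    exact add_le_add (ENNReal.ofReal_le_ofReal v1) (ENNReal.ofReal_le_ofReal (v2.trans v1))
  have hdiff : ∫⁻ ω', ‖ker m κ (a - ω'.1) (c θ ω'.2.1) - ker m κ (b - ω'.1) (c θ ω'.2.1)‖ₑ
      ∂(mu ν ψ) ≤ (C₀ + B) * ENNReal.ofReal (b - a) := by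
    rcases le_or_gt 1 (b - a) with h1 | h1
    · refine le_trans (lintegral_mono fun ω' => ?_) (hsum.trans (le_add_self.trans
        (le_mul_of_one_le_right' (by simpa using h1))))
      refine enorm_sub_le.trans ?_
      rw [Real.enorm_eq_ofReal (ker_nonneg (hc.le _ _) _ _ _),
        Real.enorm_eq_ofReal (ker_nonneg (hc.le _ _) _ _ _)]
    · refine (lintegral_mono_ae ((hc.ae_lt ψ θ).mono fun ω' hω' =>
        ker_sub_le hω' hm κ ω'.1 hab.le)).trans ?_
      rw [lintegral_lintegral_swap (Measurable.aemeasurable (by fun_prop))]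
      refine (setLIntegral_mono' measurableSet_Ioc fun s hs => h₀ s (by linarith [hs.2]) θ).trans ?_
      rw [setLIntegral_const, Real.volume_Ioc]
      gcongr
      exact le_self_add
  calc _ ≤ ∫⁻ ω', (ENNReal.ofReal (b - a))⁻¹ *
        ‖ker m κ (a - ω'.1) (c θ ω'.2.1) - ker m κ (b - ω'.1) (c θ ω'.2.1)‖ₑ +
        ENNReal.ofReal σ * (ENNReal.ofReal (ker m κ (a - ω'.1) (c θ ω'.2.1)) +
          ENNReal.ofReal (ker m κ (b - ω'.1) (c θ ω'.2.1))) ∂(mu ν ψ) := by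
        refine lintegral_mono fun ω' => ?_
        have k1 := ker_nonneg (hc.le θ ω'.2.1) m κ (a - ω'.1)
        have k2 := ker_nonneg (hc.le θ ω'.2.1) m κ (b - ω'.1)
        rw [← ENNReal.ofReal_add k1 k2, ← ENNReal.ofReal_mul hσ, ← ENNReal.ofReal_inv_of_pos hL,
          ← ofReal_norm, ← ofReal_norm, ← ENNReal.ofReal_mul (by positivity),
          ← ENNReal.ofReal_add (by positivity) (by positivity)]
        refine ENNReal.ofReal_le_ofReal ?_
        have e0 := eta_nonneg hσ hL.le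
        have e1 := eta_le (σ := σ) (b - a)
        rw [force, Real.norm_eq_abs, Real.norm_eq_abs, abs_div, abs_mul, abs_of_pos hL,
          abs_of_nonneg (beta_nonneg _ _ _), div_le_iff₀ hL, add_mul, mul_right_comm,
          inv_mul_cancel₀ hL.ne', one_mul]
        refine (mul_le_of_le_one_left (abs_nonneg _) (beta_le_one _ _ _)).trans
          ((abs_sub _ _).trans (add_le_add le_rfl ?_))
        rw [abs_of_nonneg (by positivity), mul_right_comm]
        gcongr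
        nlinarith
    _ ≤ _ := by
        rw [lintegral_add_right _ (by fun_prop), lintegral_const_mul _
          (Measurable.enorm (by fun_prop)), lintegral_const_mul _ (by fun_prop)]
        gcongr
        rw [ENNReal.inv_mul_le_iff (by simpa using hab) ENNReal.ofReal_ne_top, mul_comm]
        exact hdiff

theorem integral_frc (hc : Sect ν c m) (hσ : 0 ≤ σ) (hφ : Dens ν φ) (hψ : Dens ν ψ)
    (h : Pot ν c m κ σ φ ψ V) (N : ℕ) (T : ℝ) {ω : ℝ × Θ × ℝ} (hω : ω ∈ Om φ) :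
    beta N T ((lf φ ω + rt φ ω) / 2) * (2 * eta σ (rt φ ω - lf φ ω) * V (lf φ ω) ω.2.1 /
      (rt φ ω - lf φ ω)) ≤ ∫ ω', frc c m κ σ N T φ (ω, ω') ∂(mu ν ψ) := by
  obtain ⟨⟨l1, l2⟩, l3, l4, -⟩ := Om_spec hφ.cont hω
  simp only [frc, force]
  set a := lf φ ω
  set b := rt φ ω
  have hL := sub_pos.2 (l1.trans l2)
  obtain ⟨i1, e1⟩ := h.integral hc hψ a ω.2.1
  obtain ⟨i2, e2⟩ := h.integral hc hψ b ω.2.1
  have i3 : Integrable (fun ω' => ker m κ (a - ω'.1) (c ω.2.1 ω'.2.1) -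
    ker m κ (b - ω'.1) (c ω.2.1 ω'.2.1)) (mu ν ψ) := i1.sub i2
  have i4 : Integrable (fun ω' => eta σ (b - a) * (ker m κ (a - ω'.1) (c ω.2.1 ω'.2.1) +
    ker m κ (b - ω'.1) (c ω.2.1 ω'.2.1))) (mu ν ψ) := (i1.add i2).const_mul _
  rw [integral_div, integral_const_mul, integral_sub i3 i4, integral_sub i1 i2, integral_const_mul,
    integral_add i1 i2, e1, e2, h.lev a b _ (l3.trans l4.symm), mul_div_assoc]
  have b0 := beta_nonneg N T ((a + b) / 2)
  have e0 := eta_nonneg hσ hL.le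
  have v0 := h.pos a ω.2.1
  have e3 : exp (-(σ * (b - a))) = 1 - 4 * eta σ (b - a) := by unfold eta; ring
  rw [← mul_div_assoc, ← mul_div_assoc, e3]
  refine div_le_div_of_nonneg_right (mul_le_mul_of_nonneg_left ?_ b0) hL.le
  nlinarith [mul_nonneg (mul_nonneg e0 e0) v0.le]

end Vale.Agent.P100
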